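import Vale.Agent.P207.H686.ZD

/-! # P207, line N4: uniform projections along the S-bundle and their limits -/

open Metric Set Filter Topology Module
open scoped ContDiff

namespace Vale.Agent.P207.H106

section Gen

variable {W : Type*} [NormedAddCommGroup W] [NormedSpace ℝ W]

/-- `p` is a projection with kernel `S` -/
structure IsQ (S : Submodule ℝ W) (p : W →L[ℝ] W) : Prop where
  sub : ∀ s, s - p s ∈ S
  ker : ∀ s ∈ S, p s = 0

theorem IsQ.idem {S : Submodule ℝ W} {p : W →L[ℝ] W} (h : IsQ S p) (s : W) : p (p s) = p s := by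
  have := h.ker _ (h.sub s)
  rw [map_sub, sub_eq_zero] at this
  exact this.symm

theorem IsQ.mem {S : Submodule ℝ W} {p : W →L[ℝ] W} (h : IsQ S p) {s : W} (hs : p s = 0) :
    s ∈ S := by
  have := h.sub s
  rwa [hs, sub_zero] at this

theorem exists_isQ (W : Type*) [NormedAddCommGroup W] [NormedSpace ℝ W] [FiniteDimensional ℝ W] :
    ∃ c : ℝ, 1 ≤ c ∧ ∀ S : Submodule ℝ W, ∃ p : W →L[ℝ] W, IsQ S p ∧ ‖p‖ ≤ c := by
  set e : W ≃L[ℝ] EuclideanSpace ℝ (Fin (finrank ℝ W)) := toEuclidean with he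
  set e1 : W →L[ℝ] EuclideanSpace ℝ (Fin (finrank ℝ W)) := e.toContinuousLinearMap with he1
  set e2 : EuclideanSpace ℝ (Fin (finrank ℝ W)) →L[ℝ] W := e.symm.toContinuousLinearMap with he2
  refine ⟨max 1 (‖e2‖ * ‖e1‖), le_max_left _ _, fun S => ?_⟩
  set S' : Submodule ℝ (EuclideanSpace ℝ (Fin (finrank ℝ W))) :=
    S.comap (e2 : EuclideanSpace ℝ (Fin (finrank ℝ W)) →ₗ[ℝ] W) with hS'
  refine ⟨e2.comp ((S'ᗮ.starProjection).comp e1), ⟨fun s => ?_, fun s hs => ?_⟩, ?_⟩
  · have h1 : e1 s - S'ᗮ.starProjection (e1 s) ∈ S' := by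
      rw [Submodule.starProjection_orthogonal']
      have : e1 s - (1 - S'.starProjection) (e1 s) = S'.starProjection (e1 s) := by
        simp
      rw [this]
      exact Submodule.starProjection_apply_mem _ _
    have h2 : e2 (e1 s - S'ᗮ.starProjection (e1 s)) ∈ S := h1
    have h3 : e2 (e1 s) = s := e.symm_apply_apply s
    rw [map_sub, h3] at h2
    exact h2
  · have h1 : e1 s ∈ S' := by
      show e2 (e1 s) ∈ S
      have h3 : e2 (e1 s) = s := e.symm_apply_apply s
      rw [h3]; exact hs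
    have h2 : S'ᗮ.starProjection (e1 s) = 0 := by
      rw [Submodule.starProjection_orthogonal']
      have : S'.starProjection (e1 s) = e1 s := Submodule.starProjection_eq_self_iff.2 h1
      simp [this]
    simp [h2]
  · refine (ContinuousLinearMap.opNorm_comp_le _ _).trans ?_
    have h1 : ‖(S'ᗮ.starProjection).comp e1‖ ≤ ‖e1‖ :=
      (ContinuousLinearMap.opNorm_comp_le _ _).trans
        (by
          have := Submodule.starProjection_norm_le (K := S'ᗮ) (𝕜 := ℝ)
          nlinarith [norm_nonneg e1])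
    exact (mul_le_mul_of_nonneg_left h1 (norm_nonneg _)).trans (le_max_right _ _)

/-- limits of projections with kernels of constant dimension -/
theorem isQ_limit [FiniteDimensional ℝ W] {S : ℕ → Submodule ℝ W} {S0 : Submodule ℝ W}
    (hr : ∀ n, finrank ℝ (S n) = finrank ℝ S0)
    (hcl : ∀ (θ : ℕ → ℕ), StrictMono θ → ∀ (s : ℕ → W) (t : W), (∀ n, s n ∈ S (θ n)) →
      Tendsto s atTop (𝓝 t) → t ∈ S0)
    {p : ℕ → W →L[ℝ] W} (hp : ∀ n, IsQ (S n) (p n)) {c : ℝ} (hc : ∀ n, ‖p n‖ ≤ c)
    {u : ℕ → W} (hu : ∀ n, p n (u n) = u n) {u0 : W} (hlim : Tendsto u atTop (𝓝 u0))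
    (hmem : u0 ∈ S0) : u0 = 0 := by
  have hcomp : IsCompact (closedBall (0 : W →L[ℝ] W) c) := isCompact_closedBall 0 c
  obtain ⟨P, -, θ, hθ, hP⟩ := hcomp.tendsto_subseq (x := p)
    (fun n => by rw [mem_closedBall_zero_iff]; exact hc n)
  have hPs : ∀ s, Tendsto (fun n => p (θ n) s) atTop (𝓝 (P s)) := fun s =>
    ((ContinuousLinearMap.apply ℝ W s).continuous.tendsto P).comp hP
  -- the range of `1 - P` lies in `S0`
  have hsub : ∀ s, s - P s ∈ S0 := fun s =>
    hcl θ hθ (fun n => s - p (θ n) s) _ (fun n => (hp (θ n)).sub s) (tendsto_const_nhds.sub (hPs s))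
  have hid : ∀ s, P (P s) = P s := by
    intro s
    have h1 : Tendsto (fun n => p (θ n) (p (θ n) s)) atTop (𝓝 (P (P s))) := by
      have hb : Continuous fun q : (W →L[ℝ] W) × W => q.1 q.2 := continuous_fst.clm_apply continuous_snd
      exact (hb.tendsto (P, P s)).comp (hP.prodMk_nhds (hPs s))
    have h2 : (fun n => p (θ n) (p (θ n) s)) = fun n => p (θ n) s := by
      funext n; exact (hp (θ n)).idem s
    rw [h2] at h1
    exact tendsto_nhds_unique h1 (hPs s)
  -- traces
  set tr : (W →L[ℝ] W) →ₗ[ℝ] ℝ := (LinearMap.trace ℝ W).comp (ContinuousLinearMap.coeLM ℝ) with htr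
  have htrc : Continuous tr := LinearMap.continuous_of_finiteDimensional tr
  have htn : ∀ n, tr (ContinuousLinearMap.id ℝ W - p (θ n)) = (finrank ℝ S0 : ℝ) := by
    intro n
    have hproj : LinearMap.IsProj (S (θ n))
        ((ContinuousLinearMap.id ℝ W - p (θ n) : W →L[ℝ] W) : W →ₗ[ℝ] W) := by
      constructor
      · intro x; exact (hp (θ n)).sub x
      · intro x hx
        show x - p (θ n) x = x
        rw [(hp (θ n)).ker x hx, sub_zero]
    have := hproj.trace
    rw [hr] at this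
    exact this
  have hlimtr : Tendsto (fun n => tr (ContinuousLinearMap.id ℝ W - p (θ n))) atTop
      (𝓝 (tr (ContinuousLinearMap.id ℝ W - P))) :=
    (htrc.tendsto _).comp (tendsto_const_nhds.sub hP)
  have htP : tr (ContinuousLinearMap.id ℝ W - P) = (finrank ℝ S0 : ℝ) := by
    have h2 : (fun n => tr (ContinuousLinearMap.id ℝ W - p (θ n))) = fun _ => (finrank ℝ S0 : ℝ) := by
      funext n; exact htn n
    rw [h2] at hlimtr
    exact tendsto_nhds_unique hlimtr tendsto_const_nhds
  -- the range of `1 - P`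
  set g : W →ₗ[ℝ] W := ((ContinuousLinearMap.id ℝ W - P : W →L[ℝ] W) : W →ₗ[ℝ] W) with hg
  have hgi : LinearMap.IsProj (LinearMap.range g) g := by
    constructor
    · intro x; exact LinearMap.mem_range_self g x
    · rintro x ⟨y, rfl⟩
      show (y - P y) - P (y - P y) = y - P y
      rw [map_sub, hid]; simp
  have hfr : finrank ℝ (LinearMap.range g) = finrank ℝ S0 := by
    have h1 := hgi.trace
    have h2 : (LinearMap.trace ℝ W) g = (finrank ℝ S0 : ℝ) := htP
    rw [h2] at h1
    exact_mod_cast h1.symm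
  have hle : LinearMap.range g ≤ S0 := by
    rintro x ⟨y, rfl⟩
    exact hsub y
  have heq : LinearMap.range g = S0 := Submodule.eq_of_le_of_finrank_eq hle hfr
  have hPu : P u0 = u0 := by
    have h1 : Tendsto (fun n => p (θ n) (u (θ n))) atTop (𝓝 (P u0)) := by
      have hb : Continuous fun q : (W →L[ℝ] W) × W => q.1 q.2 := continuous_fst.clm_apply continuous_snd
      exact (hb.tendsto (P, u0)).comp (hP.prodMk_nhds (hlim.comp hθ.tendsto_atTop))
    have h2 : (fun n => p (θ n) (u (θ n))) = fun n => u (θ n) := by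
      funext n; exact hu (θ n)
    rw [h2] at h1
    exact tendsto_nhds_unique h1 (hlim.comp hθ.tendsto_atTop)
  rw [← heq] at hmem
  obtain ⟨y, hy⟩ := hmem
  have hy' : y - P y = u0 := hy
  have h3 : P u0 = 0 := by rw [← hy', map_sub, hid, sub_self]
  rw [← hPu, h3]

end Gen

section Calc

variable {E W : Type*} [NormedAddCommGroup E] [NormedSpace ℝ E] [NormedAddCommGroup W]
  [NormedSpace ℝ W]

/-- a bound for the derivatives of an operator valued function from its evaluations -/
theorem iter_op_le {f : E → W →L[ℝ] ℝ} {U : Set E} (hU : IsOpen U) (hf : ContDiffOn ℝ ∞ f U)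
    {x : E} (hx : x ∈ U) {k : ℕ} {C : ℝ} (hC : 0 ≤ C)
    (h : ∀ s, ‖iteratedFDeriv ℝ k (fun y => f y s) x‖ ≤ C * ‖s‖) :
    ‖iteratedFDeriv ℝ k f x‖ ≤ C := by
  refine ContinuousMultilinearMap.opNorm_le_bound hC (fun m => ?_)
  refine ContinuousLinearMap.opNorm_le_bound _ (mul_nonneg hC (Finset.prod_nonneg fun _ _ => norm_nonneg _))
    (fun s => ?_)
  have h1 := iteratedFDerivWithin_clm_apply_const_apply (𝕜 := ℝ) hU.uniqueDiffOn hf (i := k)
    (by exact_mod_cast le_top) hx (u := s) (m := m)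
  rw [iteratedFDerivWithin_of_isOpen k hU hx, iteratedFDerivWithin_of_isOpen k hU hx] at h1
  rw [← h1]
  refine ((iteratedFDeriv ℝ k (fun y => f y s) x).le_opNorm m).trans ?_
  have := mul_le_mul_of_nonneg_right (h s)
    (Finset.prod_nonneg (s := Finset.univ) fun i _ => norm_nonneg (m i))
  linarith

/-- scaling to the unit ball: smoothness and bounds -/
theorem scale_bd [FiniteDimensional ℝ E] {F : Type*} [NormedAddCommGroup F] [NormedSpace ℝ F]
    {f : E → F} {U : Set E} (hU : IsOpen U) (hf : ContDiffOn ℝ ∞ f U) {r : ℝ} (hr : 0 ≤ r)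
    (hrU : closedBall (0 : E) r ⊆ U) (k : ℕ) :
    ContDiffOn ℝ ∞ (fun u => f (r • u)) (ball 0 1) ∧
      ∃ B, 0 ≤ B ∧ ∀ i ≤ k, ∀ u ∈ ball (0 : E) 1, ‖iteratedFDeriv ℝ i (fun u => f (r • u)) u‖ ≤ B := by
  set V : Set E := (fun u : E => r • u) ⁻¹' U with hV
  have hVo : IsOpen V := hU.preimage (continuous_const_smul r)
  have hcV : closedBall (0 : E) 1 ⊆ V := by
    intro u hu
    apply hrU
    rw [mem_closedBall_zero_iff] at hu ⊢
    rw [norm_smul, Real.norm_eq_abs, abs_of_nonneg hr]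
    nlinarith [norm_nonneg u]
  have hs : ContDiffOn ℝ ∞ (fun u => f (r • u)) V :=
    hf.comp (contDiff_const_smul r).contDiffOn (fun _ h => h)
  refine ⟨hs.mono (ball_subset_closedBall.trans hcV), ?_⟩
  have hb : ∀ i : ℕ, ∃ B, 0 ≤ B ∧ ∀ u ∈ closedBall (0 : E) 1,
      ‖iteratedFDeriv ℝ i (fun u => f (r • u)) u‖ ≤ B := by
    intro i
    have hc : ContinuousOn (fun u => iteratedFDeriv ℝ i (fun u => f (r • u)) u) (closedBall (0 : E) 1) := by
      have h1 := hs.continuousOn_iteratedFDerivWithin (m := i) (by exact_mod_cast le_top) hVo.uniqueDiffOn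
      refine (h1.mono hcV).congr (fun u hu => ?_)
      exact (iteratedFDerivWithin_of_isOpen i hVo (hcV hu)).symm
    obtain ⟨B, hB⟩ := (isCompact_closedBall (0 : E) 1).exists_bound_of_continuousOn hc
    exact ⟨max B 0, le_max_right _ _, fun u hu => (hB u hu).trans (le_max_left _ _)⟩
  choose B hB0 hB using hb
  refine ⟨∑ i ∈ Finset.range (k + 1), B i, Finset.sum_nonneg fun i _ => hB0 i, fun i hi u hu => ?_⟩
  refine (hB i u (ball_subset_closedBall hu)).trans ?_
  exact Finset.single_le_sum (f := B) (fun j _ => hB0 j) (Finset.mem_range.2 (by omega))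

end Calc

end Vale.Agent.P207.H106
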