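import Vale.Agent.P207.H106.Proj
import Vale.Agent.P207.H7.Zoom

/-! # P207, line N4, S-bundle (e): smooth sections have values in the S-bundle -/

open Metric Set Filter Topology Module
open scoped ContDiff

namespace Vale.Agent.P207.H106

open Vale.Agent.P207.H686

variable {E W X : Type*} [NormedAddCommGroup E] [NormedSpace ℝ E]
  [NormedAddCommGroup W] [NormedSpace ℝ W]

theorem cast_le_inf (k : ℕ) : (k : WithTop ℕ∞) ≤ ∞ := by exact_mod_cast le_top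

/-- an infinite forward orbit -/
structure Orbit (D : ZD E W X) where
  v : ℕ → X
  A : ℕ → (E ≃L[ℝ] E)
  L : ℕ → (W ≃L[ℝ] W)
  st : ∀ j, D.St (v j) (A j) (L j) (v (j + 1))

theorem exists_orbit (D : ZD E W X) (v0 : X) : ∃ O : Orbit D, O.v 0 = v0 := by
  choose fA fL fv hf using D.St_next
  refine ⟨⟨fun j => fv^[j] v0, fun j => fA (fv^[j] v0), fun j => fL (fv^[j] v0), fun j => ?_⟩, rfl⟩
  show D.St (fv^[j] v0) (fA (fv^[j] v0)) (fL (fv^[j] v0)) (fv^[j + 1] v0)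
  rw [Function.iterate_succ_apply']
  exact hf _

namespace Orbit

variable {D : ZD E W X} (O : Orbit D)

/-- products of the actions on `E` -/
def P : ℕ → (E ≃L[ℝ] E)
  | 0 => ContinuousLinearEquiv.refl ℝ E
  | n + 1 => (P n).trans (O.A n)

/-- products of the actions on the forms -/
def R : ℕ → (W ≃L[ℝ] W)
  | 0 => ContinuousLinearEquiv.refl ℝ W
  | n + 1 => (R n).trans (O.L n)

theorem P_symm_succ (n : ℕ) (x : E) : (O.P (n + 1)).symm x = (O.P n).symm ((O.A n).symm x) := rfl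
theorem P_succ (n : ℕ) (x : E) : O.P (n + 1) x = O.A n (O.P n x) := rfl
theorem R_succ (n : ℕ) (s : W) : O.R (n + 1) s = O.L n (O.R n s) := rfl
theorem R_symm_succ (n : ℕ) (s : W) : (O.R (n + 1)).symm s = (O.R n).symm ((O.L n).symm s) := rfl
theorem R_zero (s : W) : O.R 0 s = s := rfl
theorem P_zero (x : E) : O.P 0 x = x := rfl

theorem P_back (i d : ℕ) (x : E) : ‖O.P i ((O.P (i + d)).symm x)‖ ≤ D.lam ^ d * ‖x‖ := by
  induction d generalizing x with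
  | zero => simp
  | succ d ih =>
    rw [← add_assoc, P_symm_succ]
    calc ‖O.P i ((O.P (i + d)).symm ((O.A (i + d)).symm x))‖
        ≤ D.lam ^ d * ‖(O.A (i + d)).symm x‖ := ih _
      _ ≤ D.lam ^ d * (D.lam * ‖x‖) :=
          mul_le_mul_of_nonneg_left (D.St_A (O.st _) x) (pow_nonneg D.lam0.le d)
      _ = D.lam ^ (d + 1) * ‖x‖ := by ring

theorem R_back (i d : ℕ) (s : W) : ‖O.R i ((O.R (i + d)).symm s)‖ ≤ D.Lam ^ d * ‖s‖ := by
  have hL : 0 ≤ D.Lam := zero_le_one.trans D.Lam1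
  induction d generalizing s with
  | zero => simp
  | succ d ih =>
    rw [← add_assoc, R_symm_succ]
    calc ‖O.R i ((O.R (i + d)).symm ((O.L (i + d)).symm s))‖
        ≤ D.Lam ^ d * ‖(O.L (i + d)).symm s‖ := ih _
      _ ≤ D.Lam ^ d * (D.Lam * ‖s‖) :=
          mul_le_mul_of_nonneg_left (D.St_L (O.st _) s) (pow_nonneg hL d)
      _ = D.Lam ^ (d + 1) * ‖s‖ := by ring

theorem R_bd (hL : ∀ {v A L v'}, D.St v A L v' → ∀ s, ‖L s‖ ≤ D.lam ^ 2 * ‖s‖) (n : ℕ) (s : W) :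
    ‖O.R n s‖ ≤ D.lam ^ (2 * n) * ‖s‖ := by
  induction n with
  | zero => simp [R_zero]
  | succ n ih =>
    rw [R_succ]
    calc ‖O.L n (O.R n s)‖ ≤ D.lam ^ 2 * ‖O.R n s‖ := hL (O.st n) _
      _ ≤ D.lam ^ 2 * (D.lam ^ (2 * n) * ‖s‖) :=
          mul_le_mul_of_nonneg_left ih (pow_nonneg D.lam0.le 2)
      _ = D.lam ^ (2 * (n + 1)) * ‖s‖ := by ring

theorem mem_R (step : ∀ {v A L v'}, D.St v A L v' → ∀ s, s ∈ D.Sm v ↔ L s ∈ D.Sm v') (n : ℕ)
    (s : W) : s ∈ D.Sm (O.v 0) ↔ O.R n s ∈ D.Sm (O.v n) := by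
  induction n with
  | zero => rw [R_zero]
  | succ n ih => rw [ih, R_succ]; exact step (O.st n) _

end Orbit

variable [FiniteDimensional ℝ E] [FiniteDimensional ℝ W]

/-- the orbit estimate for a smooth section over `ZD` -/
theorem orbit_est (D : ZD E W X)
    (hL : ∀ {v A L v'}, D.St v A L v' → ∀ s, ‖L s‖ ≤ D.lam ^ 2 * ‖s‖)
    (C : ℕ → ℝ) (hC : ∀ k, 0 ≤ C k)
    (bound : ∀ v, ∀ s ∈ D.Sm v, ∀ k : ℕ, ∀ x ∈ ball (0 : E) 1,
      ‖iteratedFDeriv ℝ k (fun y => D.N v y s) x‖ ≤ C k * ‖s‖)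
    (step : ∀ {v A L v'}, D.St v A L v' → ∀ s, s ∈ D.Sm v ↔ L s ∈ D.Sm v')
    (pr : X → W →L[ℝ] W) (hpr : ∀ v, IsQ (D.Sm v) (pr v)) (c : ℝ) (hc1 : 1 ≤ c)
    (hc : ∀ v, ‖pr v‖ ≤ c) (O : Orbit D)
    {U : Set E} (hU : IsOpen U) {r : ℝ} (hr : 0 < r) (hrU : closedBall (0 : E) r ⊆ U)
    {τ : E → W} (hτ : ContDiffOn ℝ ∞ τ U)
    (hF : ContDiffOn ℝ ∞ (fun x => D.N (O.v 0) x (pr (O.v 0) (τ x))) U)
    (hτ0 : τ 0 ∉ D.Sm (O.v 0)) :
    ∃ (Kc : ℝ) (δ : ℕ → ℝ), Tendsto δ atTop (𝓝 0) ∧ ∀ᶠ n in atTop, ∃ (G : E → ℝ) (u : W),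
      ContDiffOn ℝ ∞ G (ball 0 1) ∧ (∀ x ∈ ball (0 : E) 1, ‖iteratedFDeriv ℝ 3 G x‖ ≤ Kc) ∧
      (∀ x ∈ ball (0 : E) 1, |D.N (O.v n) x u - G x| ≤ δ n) ∧ ‖u‖ = 1 ∧
      pr (O.v n) u = u := by
  classical
  have hl0 := D.lam0
  have hl1 := D.lam1
  have hLam0 : 0 < D.Lam := zero_lt_one.trans_le D.Lam1
  set a : ℝ := -Real.log D.lam with ha
  set b : ℝ := Real.log D.Lam / 2 with hb
  have ha0 : 0 < a := by rw [ha]; have := Real.log_neg hl0 hl1; linarith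
  have hgap : 2 * b < ((3 : ℕ) : ℝ) * a := by
    have h1 : Real.log (D.lam ^ 3 * D.Lam) < 0 :=
      Real.log_neg (by positivity) D.gap
    rw [Real.log_mul (by positivity) hLam0.ne', Real.log_pow] at h1
    rw [ha, hb]; push_cast at *; linarith
  have expl : ∀ (t : ℝ) (m : ℕ), t = m → Real.exp (-a * t) = D.lam ^ m := by
    intro t m h
    subst h
    rw [ha, neg_neg, mul_comm, Real.exp_nat_mul, Real.exp_log hl0]
  have expL : ∀ (t : ℝ) (m : ℕ), t = m → Real.exp (2 * b * t) = D.Lam ^ m := by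
    intro t m h
    subst h
    have : 2 * b * (m : ℝ) = m * Real.log D.Lam := by rw [hb]; ring
    rw [this, Real.exp_nat_mul, Real.exp_log hLam0]
  set A' : ℝ := max c r⁻¹ with hA'
  have hA1 : 1 ≤ A' := hc1.trans (le_max_left _ _)
  have hA0 : 0 < A' := zero_lt_one.trans_le hA1
  -- bounds for the section and the function
  obtain ⟨hσs, B, hB0, hB⟩ := scale_bd hU hτ hr.le hrU 3
  obtain ⟨hFs, M, hM0, hM⟩ := scale_bd hU hF hr.le hrU 3
  -- the error terms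
  choose e hes heb heN using fun j => D.St_N (O.st j)
  set Zf : ℕ → E → W →L[ℝ] ℝ := fun j u => (e j u).comp (O.L j : W →L[ℝ] W)
    - (D.N (O.v (j + 1)) u).comp
        ((ContinuousLinearMap.id ℝ W - pr (O.v (j + 1))).comp (O.L j : W →L[ℝ] W)) with hZf
  have hsmS : ∀ v s, s ∈ D.Sm v → ContDiffOn ℝ ∞ (fun x => D.N v x s) (ball 0 1) :=
    fun v s hs => hs
  have hZs : ∀ j, ContDiffOn ℝ ∞ (Zf j) (ball 0 1) := by
    intro j
    rw [contDiffOn_clm_apply]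
    intro s
    have h1 : ContDiffOn ℝ ∞ (fun x => e j x (O.L j s)) (ball 0 1) :=
      (hes j).clm_apply contDiffOn_const
    have h2 := hsmS (O.v (j + 1)) _ ((hpr (O.v (j + 1))).sub (O.L j s))
    exact h1.sub h2
  have hLj : ∀ j s, ‖O.L j s‖ ≤ 1 * ‖s‖ := by
    intro j s
    refine (hL (O.st j) s).trans ?_
    have : D.lam ^ 2 ≤ 1 := pow_le_one₀ hl0.le hl1.le
    exact mul_le_mul_of_nonneg_right this (norm_nonneg _)
  have hMk : ∀ k, 0 ≤ D.M k := fun k =>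
    (norm_nonneg _).trans (heb 0 k 0 (mem_ball_self one_pos))
  set Cz : ℝ := ∑ i ∈ Finset.range 4, (D.M i + C i * (1 + c)) with hCz
  have hCz0 : 0 ≤ Cz := Finset.sum_nonneg fun i _ =>
    add_nonneg (hMk i) (mul_nonneg (hC i) (by linarith))
  have hZb : ∀ j, ∀ i ≤ 3, ∀ u ∈ ball (0 : E) 1, ‖iteratedFDeriv ℝ i (Zf j) u‖ ≤ Cz := by
    intro j i hi u hu
    have hnn : ∀ i, 0 ≤ D.M i + C i * (1 + c) := fun i =>
      add_nonneg (hMk i) (mul_nonneg (hC i) (by linarith))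
    refine (iter_op_le isOpen_ball (hZs j) hu (hnn i) (fun s => ?_)).trans
      (Finset.single_le_sum (f := fun i => D.M i + C i * (1 + c)) (fun i _ => hnn i)
        (Finset.mem_range.2 (by omega)))
    set s' := O.L j s - pr (O.v (j + 1)) (O.L j s) with hs'
    have hs'm : s' ∈ D.Sm (O.v (j + 1)) := (hpr _).sub _
    have h1 : ContDiffOn ℝ ∞ (fun x => e j x (O.L j s)) (ball 0 1) :=
      (hes j).clm_apply contDiffOn_const
    have h2 := hsmS (O.v (j + 1)) _ hs'm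
    have hnb : (ball (0 : E) 1) ∈ 𝓝 u := isOpen_ball.mem_nhds hu
    have hfun : (fun y => Zf j y s) = (fun y => e j y (O.L j s)) - (fun y => D.N (O.v (j + 1)) y s') :=
      rfl
    have h3 : iteratedFDeriv ℝ i (fun y => Zf j y s) u
        = iteratedFDeriv ℝ i (fun y => e j y (O.L j s)) u
          - iteratedFDeriv ℝ i (fun y => D.N (O.v (j + 1)) y s') u := by
      rw [hfun]
      exact iteratedFDeriv_sub_apply ((h1.contDiffAt hnb).of_le (by exact_mod_cast le_top))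
        ((h2.contDiffAt hnb).of_le (by exact_mod_cast le_top))
    rw [h3]
    refine (norm_sub_le _ _).trans ?_
    have h4 : ‖iteratedFDeriv ℝ i (fun y => e j y (O.L j s)) u‖ ≤ D.M i * ‖s‖ := by
      have h5 := norm_iteratedFDeriv_clm_apply_const (𝕜 := ℝ) (N := ∞) (n := i) (c := O.L j s)
        ((hes j).contDiffAt hnb) (by exact_mod_cast le_top)
      refine h5.trans ?_
      have h6 := heb j i u hu
      have h7 := hLj j s
      rw [one_mul] at h7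
      calc ‖O.L j s‖ * ‖iteratedFDeriv ℝ i (e j) u‖ ≤ ‖s‖ * D.M i :=
            mul_le_mul h7 h6 (norm_nonneg _) (norm_nonneg _)
        _ = D.M i * ‖s‖ := mul_comm _ _
    have h5 : ‖iteratedFDeriv ℝ i (fun y => D.N (O.v (j + 1)) y s') u‖ ≤ C i * (1 + c) * ‖s‖ := by
      refine (bound _ s' hs'm i u hu).trans ?_
      rw [mul_assoc]
      refine mul_le_mul_of_nonneg_left ?_ (hC i)
      have h7 := hLj j s
      rw [one_mul] at h7
      have h8 : ‖pr (O.v (j + 1)) (O.L j s)‖ ≤ c * ‖s‖ :=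
        ((pr (O.v (j + 1))).le_opNorm _).trans
          (mul_le_mul (hc _) h7 (norm_nonneg _) (by linarith))
      calc ‖s'‖ ≤ ‖O.L j s‖ + ‖pr (O.v (j + 1)) (O.L j s)‖ := norm_sub_le _ _
        _ ≤ ‖s‖ + c * ‖s‖ := add_le_add h7 h8
        _ = (1 + c) * ‖s‖ := by ring
    calc _ ≤ D.M i * ‖s‖ + C i * (1 + c) * ‖s‖ := add_le_add h4 h5
      _ = (D.M i + C i * (1 + c)) * ‖s‖ := by ring
  -- the push forward
  set Q : ℕ → W →L[ℝ] W := fun j => (pr (O.v j)).comp (O.R j : W →L[ℝ] W) with hQ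
  have hQa : ∀ j s, Q j s = pr (O.v j) (O.R j s) := fun j s => rfl
  have hQb : ∀ j, ‖Q j‖ ≤ c * D.lam ^ (2 * j) := by
    intro j
    refine ContinuousLinearMap.opNorm_le_bound _ (by positivity) (fun s => ?_)
    rw [hQa]
    calc ‖pr (O.v j) (O.R j s)‖ ≤ ‖pr (O.v j)‖ * ‖O.R j s‖ := (pr (O.v j)).le_opNorm _
      _ ≤ c * (D.lam ^ (2 * j) * ‖s‖) :=
          mul_le_mul (hc _) (O.R_bd hL j s) (norm_nonneg _) (by linarith)
      _ = c * D.lam ^ (2 * j) * ‖s‖ := by ring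
  -- recursion of the push forward
  have hQs : ∀ j s, Q (j + 1) s = pr (O.v (j + 1)) (O.L j (Q j s)) := by
    intro j s
    rw [hQa, O.R_succ]
    have h1 : O.R j s - Q j s ∈ D.Sm (O.v j) := (hpr (O.v j)).sub _
    have h2 := (step (O.st j) _).1 h1
    have h3 := (hpr (O.v (j + 1))).ker _ h2
    rw [map_sub, map_sub, sub_eq_zero] at h3
    exact h3
  have hQn : ∀ n j, j ≤ n → ∀ s, ‖Q j s‖ ≤ c * D.Lam ^ (n - j) * ‖Q n s‖ := by
    intro n j hj s
    have h1 : O.R n s - Q n s ∈ D.Sm (O.v n) := (hpr (O.v n)).sub _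
    obtain ⟨d, rfl⟩ := Nat.exists_eq_add_of_le hj
    have h2 : (O.R (j + d)).symm (O.R (j + d) s - Q (j + d) s) ∈ D.Sm (O.v 0) := by
      rw [O.mem_R step (j + d)]
      rw [ContinuousLinearEquiv.apply_symm_apply]
      exact h1
    have h3 := (O.mem_R step j _).1 h2
    have h4 := (hpr (O.v j)).ker _ h3
    rw [map_sub, ContinuousLinearEquiv.symm_apply_apply, map_sub, map_sub, sub_eq_zero] at h4
    rw [hQa j, h4, Nat.add_sub_cancel_left]
    calc ‖pr (O.v j) (O.R j ((O.R (j + d)).symm (Q (j + d) s)))‖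
        ≤ ‖pr (O.v j)‖ * ‖O.R j ((O.R (j + d)).symm (Q (j + d) s))‖ := (pr (O.v j)).le_opNorm _
      _ ≤ c * (D.Lam ^ d * ‖Q (j + d) s‖) :=
          mul_le_mul (hc _) (O.R_back j d _) (norm_nonneg _) (by linarith)
      _ = c * D.Lam ^ d * ‖Q (j + d) s‖ := by ring
  -- size
  have hρ0 : 0 < ‖Q 0 (τ 0)‖ := by
    rw [norm_pos_iff]
    intro h
    exact hτ0 ((hpr (O.v 0)).mem h)
  set q : ℝ := D.lam ^ 3 * D.Lam with hq
  have hq0 : 0 < q := by positivity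
  have hq1 : q < 1 := D.gap
  have hRn : ∀ n, 0 < ‖Q n (τ 0)‖ := by
    intro n
    have h1 := hQn n 0 (Nat.zero_le _) (τ 0)
    by_contra h
    have h2 : ‖Q n (τ 0)‖ = 0 := le_antisymm (not_lt.1 h) (norm_nonneg _)
    rw [h2, mul_zero] at h1
    linarith
  have hRq : ∀ n, D.lam ^ (3 * n) / ‖Q n (τ 0)‖ ≤ c / ‖Q 0 (τ 0)‖ * q ^ n := by
    intro n
    have h1 := hQn n 0 (Nat.zero_le _) (τ 0)
    rw [Nat.sub_zero] at h1
    rw [div_mul_eq_mul_div, div_le_div_iff₀ (hRn n) hρ0]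
    have h2 : q ^ n = D.lam ^ (3 * n) * D.Lam ^ n := by rw [hq, mul_pow, pow_mul]
    rw [h2]
    calc D.lam ^ (3 * n) * ‖Q 0 (τ 0)‖
        ≤ D.lam ^ (3 * n) * (c * D.Lam ^ n * ‖Q n (τ 0)‖) :=
          mul_le_mul_of_nonneg_left h1 (by positivity)
      _ = c * (D.lam ^ (3 * n) * D.Lam ^ n) * ‖Q n (τ 0)‖ := by ring
  -- the constants
  set Kz : ℝ := H7.Kz 3 a b A' Cz with hKz
  refine ⟨|Kz| * 2, fun n => D.K * (A' ^ 2 * B) * (c / ‖Q 0 (τ 0)‖ * q ^ n), ?_, ?_⟩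
  · have h1 := tendsto_pow_atTop_nhds_zero_of_lt_one hq0.le hq1
    have h2 := (h1.const_mul (c / ‖Q 0 (τ 0)‖)).const_mul (D.K * (A' ^ 2 * B))
    simpa using h2
  -- eventually
  have hev1 : ∀ᶠ n : ℕ in atTop, D.lam ^ n ≤ r := by
    have h1 := tendsto_pow_atTop_nhds_zero_of_lt_one hl0.le hl1
    filter_upwards [h1.eventually (gt_mem_nhds hr)] with n hn using hn.le
  have hev2 : ∀ᶠ n : ℕ in atTop, (M + n * B) * (c / ‖Q 0 (τ 0)‖ * q ^ n) ≤ 1 := by
    have h1 := (tendsto_pow_atTop_nhds_zero_of_lt_one hq0.le hq1).const_mul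
      (M * (c / ‖Q 0 (τ 0)‖))
    have h2 := (tendsto_self_mul_const_pow_of_lt_one hq0.le hq1).const_mul
      (B * (c / ‖Q 0 (τ 0)‖))
    have h3 := h1.add h2
    simp only [mul_zero, add_zero] at h3
    filter_upwards [h3.eventually (gt_mem_nhds (show (0 : ℝ) < 1 by norm_num))] with n hn
    have : (M + n * B) * (c / ‖Q 0 (τ 0)‖ * q ^ n)
        = M * (c / ‖Q 0 (τ 0)‖) * q ^ n + B * (c / ‖Q 0 (τ 0)‖) * (n * q ^ n) := by ring
    rw [this]
    exact hn.le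
  filter_upwards [hev1, hev2] with n hn1 hn2
  -- the contractions
  set κ : ℕ → E →L[ℝ] E := fun j => ((O.P n).symm.trans (O.P j) : E ≃L[ℝ] E) with hκ
  have hκa : ∀ j x, κ j x = O.P j ((O.P n).symm x) := fun j x => rfl
  have hκb : ∀ j ≤ n, ∀ x, ‖κ j x‖ ≤ D.lam ^ (n - j) * ‖x‖ := by
    intro j hj x
    obtain ⟨d, hd⟩ := Nat.exists_eq_add_of_le hj
    rw [hκa]
    have : n - j = d := by omega
    rw [this]
    have h1 := O.P_back j d x
    rw [← hd] at h1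
    exact h1
  have hκm : ∀ j ≤ n, MapsTo (κ j) (ball (0 : E) 1) (ball 0 1) := by
    intro j hj x hx
    rw [mem_ball_zero_iff] at hx ⊢
    have h1 := hκb j hj x
    have h2 : D.lam ^ (n - j) ≤ 1 := pow_le_one₀ hl0.le hl1.le
    nlinarith [norm_nonneg x]
  set κ' : ℕ → E →L[ℝ] E := fun j => if j = 0 then r⁻¹ • κ 0 else κ j with hκ'
  have hκ'0 : κ' 0 = r⁻¹ • κ 0 := by simp [hκ']
  have hκ's : ∀ j, κ' (j + 1) = κ (j + 1) := by intro j; simp [hκ']
  have hri : 0 < r⁻¹ := inv_pos.2 hr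
  have hκ'b : ∀ j ≤ n, ‖κ' j‖ ≤ A' * Real.exp (-a * ((n : ℝ) - j)) := by
    intro j hj
    rw [expl ((n : ℝ) - j) (n - j) (by rw [Nat.cast_sub hj])]
    rcases j with _ | j
    · rw [hκ'0]
      refine ContinuousLinearMap.opNorm_le_bound _ (by positivity) (fun x => ?_)
      rw [smul_apply, norm_smul, Real.norm_eq_abs, abs_of_pos hri]
      calc r⁻¹ * ‖κ 0 x‖ ≤ A' * (D.lam ^ (n - 0) * ‖x‖) :=
            mul_le_mul (le_max_right _ _) (hκb 0 (Nat.zero_le _) x) (norm_nonneg _) hA0.le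
        _ = A' * D.lam ^ (n - 0) * ‖x‖ := by ring
    · rw [hκ's]
      refine ContinuousLinearMap.opNorm_le_bound _ (by positivity) (fun x => ?_)
      refine (hκb (j + 1) hj x).trans ?_
      refine mul_le_mul_of_nonneg_right ?_ (norm_nonneg _)
      exact le_mul_of_one_le_left (by positivity) hA1
  have hκ'm : ∀ j ≤ n, MapsTo (κ' j) (ball (0 : E) 1) (ball 0 1) := by
    intro j hj
    rcases j with _ | j
    · rw [hκ'0]
      intro x hx
      rw [mem_ball_zero_iff] at hx ⊢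
      rw [smul_apply, norm_smul, Real.norm_eq_abs, abs_of_pos hri]
      have h1 := hκb 0 (Nat.zero_le _) x
      rw [Nat.sub_zero] at h1
      have h2 : r⁻¹ * D.lam ^ n ≤ 1 := by
        rw [inv_mul_le_iff₀ hr, mul_one]; exact hn1
      calc r⁻¹ * ‖κ 0 x‖ ≤ r⁻¹ * (D.lam ^ n * ‖x‖) := mul_le_mul_of_nonneg_left h1 hri.le
        _ = (r⁻¹ * D.lam ^ n) * ‖x‖ := by ring
        _ ≤ 1 * ‖x‖ := mul_le_mul_of_nonneg_right h2 (norm_nonneg _)
        _ < 1 := by rw [one_mul]; exact hx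
    · rw [hκ's]; exact hκm (j + 1) hj
  -- the telescoped identity
  have htele : ∀ s : W, ∀ u ∈ ball (0 : E) 1, D.N (O.v n) u (Q n s)
      = D.N (O.v 0) (κ 0 u) (Q 0 s) + ∑ j ∈ Finset.range n, Zf j (κ (j + 1) u) (Q j s) := by
    intro s u hu
    refine H7.tele (fun j => ((O.A j).symm : E →L[ℝ] E)) κ ?_ ?_ hκm (fun j => D.N (O.v j)) Q Zf
      univ ?_ (mem_univ s) hu
    · intro u
      rw [hκa]
      exact (O.P n).apply_symm_apply u
    · intro j hj u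
      rw [hκa, hκa, O.P_succ]
      exact ((O.A j).symm_apply_apply _).symm
    · intro j hj u hu s _
      have h1 := heN j u hu (Q j s)
      rw [hQs j s]
      have h2 : D.N (O.v (j + 1)) u (pr (O.v (j + 1)) (O.L j (Q j s)))
          = D.N (O.v (j + 1)) u (O.L j (Q j s))
            - D.N (O.v (j + 1)) u (O.L j (Q j s) - pr (O.v (j + 1)) (O.L j (Q j s))) := by
        rw [map_sub]; ring
      rw [h2, h1]
      show _ = D.N (O.v j) ((O.A j).symm u) (Q j s) + (e j u (O.L j (Q j s))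
        - D.N (O.v (j + 1)) u (O.L j (Q j s) - pr (O.v (j + 1)) (O.L j (Q j s))))
      ring
  set N0 : E → W →L[ℝ] ℝ := fun u => (D.N (O.v 0) (r • u)).comp (pr (O.v 0)) with hN0
  obtain ⟨G, hGs, hGk, hGn⟩ := H7.zoom (k := 3) (n := n) (a := a) (b := b) (A := A') (Cz := Cz)
    (Bσ := B) (M := M) ha0 le_rfl hgap hA1 hCz0 hB0 hM0 κ' hκ'm hκ'b Q
    (fun j hj => by
      have h1 : Real.exp (-2 * a * (j : ℝ)) = D.lam ^ (2 * j) := by
        rw [← expl (2 * (j : ℝ)) (2 * j) (by push_cast; ring)]; congr 1; ring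
      rw [h1]
      exact (hQb j).trans (mul_le_mul_of_nonneg_right (le_max_left _ _) (by positivity)))
    N0 (D.N (O.v n)) Zf (fun j _ => hZs j) (fun j _ => hZb j) univ
    (fun s _ u hu => by
      rw [htele s u hu]
      have h1 : N0 (κ' 0 u) s = D.N (O.v 0) (κ 0 u) (Q 0 s) := by
        rw [hN0, hκ'0]
        show D.N (O.v 0) (r • (r⁻¹ • κ 0 u)) (pr (O.v 0) s) = _
        rw [smul_smul, mul_inv_cancel₀ hr.ne', one_smul]
        rfl
      rw [h1]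
      congr 1)
    (fun u => τ (r • u)) hσs (fun _ _ => mem_univ _) (fun i _ hi u hu => hB i hi u hu)
    (fun u => D.N (O.v 0) (r • u) (pr (O.v 0) (τ (r • u)))) (fun _ => 0) hFs
    (fun u hu => hM 3 le_rfl u hu) (fun u _ => by rw [add_zero]; rfl)
    (fun j hj => by
      have h1 := hQn n j hj (τ (r • (0 : E)))
      rw [expL ((n : ℝ) - j) (n - j) (by rw [Nat.cast_sub hj])]
      refine h1.trans ?_
      refine mul_le_mul_of_nonneg_right ?_ (norm_nonneg _)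
      exact mul_le_mul_of_nonneg_right (le_max_left _ _) (by positivity))
  have e3 : Real.exp (-(((3 : ℕ) : ℝ) * a * n)) = D.lam ^ (3 * n) := by
    rw [← expl (3 * (n : ℝ)) (3 * n) (by push_cast; ring)]; congr 1; push_cast; ring
  have e3' : Real.exp (-3 * a * (n : ℝ)) = D.lam ^ (3 * n) := by
    rw [← expl (3 * (n : ℝ)) (3 * n) (by push_cast; ring)]; congr 1; ring
  simp only [smul_zero, e3, e3', abs_zero, zero_add] at hGk hGn
  set ρ : ℝ := ‖Q n (τ 0)‖ with hρ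
  have hρp : 0 < ρ := hRn n
  have hρi : 0 < ρ⁻¹ := inv_pos.2 hρp
  refine ⟨fun x => ρ⁻¹ • G x, ρ⁻¹ • Q n (τ 0), hGs.const_smul ρ⁻¹, ?_, ?_, ?_, ?_⟩
  · intro x hx
    have h1 : iteratedFDeriv ℝ 3 (fun x => ρ⁻¹ • G x) x = ρ⁻¹ • iteratedFDeriv ℝ 3 G x :=
      iteratedFDeriv_const_smul_apply' ((hGs.contDiffAt (isOpen_ball.mem_nhds hx)).of_le
        (cast_le_inf 3))
    rw [h1, norm_smul, Real.norm_eq_abs, abs_of_pos hρi]
    have h2 := hGk x hx
    have h3 := hRq n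
    have h4 : 0 ≤ ρ + M * D.lam ^ (3 * n) + n * (B * D.lam ^ (3 * n)) := by positivity
    have h5 : ρ⁻¹ * (ρ + M * D.lam ^ (3 * n) + n * (B * D.lam ^ (3 * n))) ≤ 2 := by
      have h6 : ρ⁻¹ * (ρ + M * D.lam ^ (3 * n) + n * (B * D.lam ^ (3 * n)))
          = 1 + (M + n * B) * (D.lam ^ (3 * n) / ρ) := by
        field_simp
        ring
      rw [h6]
      have h7 : (M + n * B) * (D.lam ^ (3 * n) / ρ)
          ≤ (M + n * B) * (c / ‖Q 0 (τ 0)‖ * q ^ n) :=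
        mul_le_mul_of_nonneg_left h3 (by positivity)
      linarith
    calc ρ⁻¹ * ‖iteratedFDeriv ℝ 3 G x‖
        ≤ ρ⁻¹ * (Kz * (ρ + M * D.lam ^ (3 * n) + n * (B * D.lam ^ (3 * n)))) :=
          mul_le_mul_of_nonneg_left h2 hρi.le
      _ = Kz * (ρ⁻¹ * (ρ + M * D.lam ^ (3 * n) + n * (B * D.lam ^ (3 * n)))) := by ring
      _ ≤ |Kz| * (ρ⁻¹ * (ρ + M * D.lam ^ (3 * n) + n * (B * D.lam ^ (3 * n)))) :=
          mul_le_mul_of_nonneg_right (le_abs_self _) (mul_nonneg hρi.le h4)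
      _ ≤ |Kz| * 2 := mul_le_mul_of_nonneg_left h5 (abs_nonneg _)
  · intro x hx
    have h1 := hGn x hx
    have h2 : D.N (O.v n) x (ρ⁻¹ • Q n (τ 0)) - ρ⁻¹ • G x
        = ρ⁻¹ * (D.N (O.v n) x (Q n (τ 0)) - G x) := by
      rw [map_smul, smul_eq_mul, smul_eq_mul]; ring
    rw [h2, abs_mul, abs_of_pos hρi]
    have h3 := hRq n
    have hK := D.bd (O.v n) x hx
    have hK0 : 0 ≤ D.K := (norm_nonneg _).trans hK
    calc ρ⁻¹ * |D.N (O.v n) x (Q n (τ 0)) - G x|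
        ≤ ρ⁻¹ * (‖D.N (O.v n) x‖ * (A' ^ 2 * B * D.lam ^ (3 * n))) :=
          mul_le_mul_of_nonneg_left h1 hρi.le
      _ ≤ ρ⁻¹ * (D.K * (A' ^ 2 * B * D.lam ^ (3 * n))) :=
          mul_le_mul_of_nonneg_left (mul_le_mul_of_nonneg_right hK (by positivity)) hρi.le
      _ = D.K * (A' ^ 2 * B) * (D.lam ^ (3 * n) / ρ) := by ring
      _ ≤ D.K * (A' ^ 2 * B) * (c / ‖Q 0 (τ 0)‖ * q ^ n) :=
          mul_le_mul_of_nonneg_left h3 (by positivity)
  · rw [norm_smul, Real.norm_eq_abs, abs_of_pos hρi, inv_mul_cancel₀ hρp.ne']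
  · rw [map_smul]
    congr 1
    exact (hpr (O.v n)).idem _

/-- **(e) smooth sections have values in the S-bundle**, from the properties (a) - (d), (e') -/
theorem sec_of (D : ZD E W X)
    (hL : ∀ {v A L v'}, D.St v A L v' → ∀ s, ‖L s‖ ≤ D.lam ^ 2 * ‖s‖)
    (rank : ∀ v w, finrank ℝ (D.Sm v) = finrank ℝ (D.Sm w))
    (bound : ∃ C : ℕ → ℝ, (∀ k, 0 ≤ C k) ∧ ∀ v, ∀ s ∈ D.Sm v, ∀ k : ℕ, ∀ x ∈ ball (0 : E) 1,
      ‖iteratedFDeriv ℝ k (fun y => D.N v y s) x‖ ≤ C k * ‖s‖)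
    (step : ∀ {v A L v'}, D.St v A L v' → ∀ s, s ∈ D.Sm v ↔ L s ∈ D.Sm v')
    (bc : ∀ {v p R S v'}, D.BC v p R S v' → ∀ s, s ∈ D.Sm v ↔ S s ∈ D.Sm v')
    (closed : ∀ (v : ℕ → X) (w : X), TendstoUniformlyOn (fun n => D.N (v n)) (D.N w) atTop (ball 0 1) →
      ∀ (s : ℕ → W) (t : W), (∀ n, s n ∈ D.Sm (v n)) → Tendsto s atTop (𝓝 t) → t ∈ D.Sm w)
    (fin : ∀ (v : X) (s : W) (f : ℕ → E → ℝ) (K' : ℝ), (∀ n, ContDiffOn ℝ ∞ (f n) (ball 0 1)) →
      (∀ n, ∀ x ∈ ball (0 : E) 1, ‖iteratedFDeriv ℝ 3 (f n) x‖ ≤ K') →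
      TendstoUniformlyOn f (fun x => D.N v x s) atTop (ball 0 1) → s ∈ D.Sm v)
    {v : X} {O : Set E} (hO : IsOpen O) (hO1 : O ⊆ ball 0 1) {σ : E → W}
    (hσ : ContDiffOn ℝ ∞ σ O) (hN : ContDiffOn ℝ ∞ (fun x => D.N v x (σ x)) O) {x0 : E}
    (hx0 : x0 ∈ O) : σ x0 ∈ D.Sm v := by
  classical
  by_contra hnot
  obtain ⟨C, hC, hb⟩ := bound
  obtain ⟨c, hc1, hcex⟩ := exists_isQ W
  choose p hp hpc using fun v => hcex (D.Sm v)
  obtain ⟨R, S, v', hbc⟩ := D.BC_ex v x0 (hO1 hx0)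
  obtain ⟨e, hes, -, heN⟩ := D.BC_N hbc
  -- the section in the chart of `v'`
  set U : Set E := {y | y ∈ ball (0 : E) 1 ∧ x0 + R.symm y ∈ O} with hU
  have hcont : Continuous fun y : E => x0 + R.symm y := continuous_const.add R.symm.continuous
  have hUo : IsOpen U := isOpen_ball.inter (hO.preimage hcont)
  have hU1 : U ⊆ ball 0 1 := fun y hy => hy.1
  have h0U : (0 : E) ∈ U := ⟨mem_ball_self one_pos, by
    show x0 + R.symm 0 ∈ O
    rw [map_zero, add_zero]; exact hx0⟩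
  have hmap : ContDiff ℝ ∞ fun y : E => x0 + R.symm y := contDiff_const.add R.symm.contDiff
  set τ : E → W := fun y => S (σ (x0 + R.symm y)) with hτdef
  have hτ : ContDiffOn ℝ ∞ τ U :=
    S.contDiff.comp_contDiffOn (hσ.comp hmap.contDiffOn (fun y hy => hy.2))
  have hNτ : ContDiffOn ℝ ∞ (fun y => D.N v' y (τ y)) U := by
    have h1 : ContDiffOn ℝ ∞ (fun y => D.N v (x0 + R.symm y) (σ (x0 + R.symm y))) U :=
      hN.comp hmap.contDiffOn (fun y hy => hy.2)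
    have h2 : ContDiffOn ℝ ∞ (fun y => e y (τ y)) U :=
      (hes.mono (fun y hy => ⟨hy.1, hO1 hy.2⟩)).clm_apply hτ
    refine (h1.add h2).congr (fun y hy => ?_)
    exact heN y hy.1 (hO1 hy.2) _
  have hNp : ContDiffOn ℝ ∞ (fun y => D.N v' y (p v' (τ y))) U := by
    have h1 : ContDiffOn ℝ ∞ (fun y => (D.N v' y).comp (ContinuousLinearMap.id ℝ W - p v'))
        (ball 0 1) := by
      rw [contDiffOn_clm_apply]
      intro s
      exact (hp v').sub s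
    have h2 : ContDiffOn ℝ ∞
        (fun y => (D.N v' y).comp (ContinuousLinearMap.id ℝ W - p v') (τ y)) U :=
      (h1.mono hU1).clm_apply hτ
    refine (hNτ.sub h2).congr (fun y hy => ?_)
    show D.N v' y (p v' (τ y)) = D.N v' y (τ y) - D.N v' y (τ y - p v' (τ y))
    rw [map_sub]; ring
  have hτ0 : τ 0 ∉ D.Sm v' := by
    have h1 : τ 0 = S (σ x0) := by
      show S (σ (x0 + R.symm 0)) = _
      rw [map_zero, add_zero]
    rw [h1, ← bc hbc]
    exact hnot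
  obtain ⟨r0, hr0, hr0U⟩ := Metric.isOpen_iff.1 hUo 0 h0U
  have hrU : closedBall (0 : E) (r0 / 2) ⊆ U :=
    (closedBall_subset_ball (by linarith)).trans hr0U
  obtain ⟨Ob, hOb⟩ := exists_orbit D v'
  subst hOb
  obtain ⟨Kc, δ, hδ, hev⟩ := orbit_est D hL C hC hb step p hp c hc1 hpc Ob hUo
    (half_pos hr0) hrU hτ hNp hτ0
  obtain ⟨n0, hn0⟩ := eventually_atTop.1 hev
  choose G u hGs hGk hGN hu1 hup using fun m : ℕ => hn0 (n0 + m) (Nat.le_add_right _ _)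
  obtain ⟨w, ψ, hψ, hcv⟩ := D.cpt (fun m => Ob.v (n0 + m))
  have hsph : IsCompact (sphere (0 : W) 1) := isCompact_sphere 0 1
  obtain ⟨u0, hu0, θ, hθ, hlim⟩ := hsph.tendsto_subseq (x := fun m => u (ψ m))
    (fun m => by rw [mem_sphere_zero_iff_norm]; exact hu1 _)
  have hu01 : ‖u0‖ = 1 := by rwa [mem_sphere_zero_iff_norm] at hu0
  have hcv2 : TendstoUniformlyOn (fun n => D.N (Ob.v (n0 + ψ (θ n)))) (D.N w) atTop (ball 0 1) :=
    fun V hV => hθ.tendsto_atTop.eventually (hcv V hV)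
  have hmem : u0 ∈ D.Sm w := by
    refine fin w u0 (fun n => G (ψ (θ n))) Kc (fun n => hGs _) (fun n x hx => hGk _ x hx) ?_
    rw [Metric.tendstoUniformlyOn_iff]
    intro ε hε
    have hK0 : 0 ≤ D.K := (norm_nonneg _).trans (D.bd w 0 (mem_ball_self one_pos))
    have h1 : ∀ᶠ n in atTop, δ (n0 + ψ (θ n)) < ε / 3 := by
      have h2 : Tendsto (fun n => n0 + ψ (θ n)) atTop atTop :=
        tendsto_atTop_mono (fun n => Nat.le_add_left _ _)
          (hψ.tendsto_atTop.comp hθ.tendsto_atTop)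
      exact (hδ.comp h2).eventually (gt_mem_nhds (by linarith))
    have h2 := (Metric.tendstoUniformlyOn_iff.1 hcv2) (ε / 3) (by linarith)
    have h3 : ∀ᶠ n in atTop, D.K * ‖u (ψ (θ n)) - u0‖ < ε / 3 := by
      have h4 : Tendsto (fun n => D.K * ‖u (ψ (θ n)) - u0‖) atTop (𝓝 (D.K * ‖u0 - u0‖)) :=
        ((hlim.sub tendsto_const_nhds).norm).const_mul _
      rw [sub_self, norm_zero, mul_zero] at h4
      exact h4.eventually (gt_mem_nhds (by linarith))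
    filter_upwards [h1, h2, h3] with n a1 a2 a3 x hx
    have b1 := hGN (ψ (θ n)) x hx
    have b2 := a2 x hx
    have b3 := D.bd w x hx
    set Nn := D.N (Ob.v (n0 + ψ (θ n))) x
    set un := u (ψ (θ n))
    rw [dist_eq_norm] at b2 ⊢
    have e1 : D.N w x u0 - G (ψ (θ n)) x = D.N w x (u0 - un) + (D.N w x - Nn) un
        + (Nn un - G (ψ (θ n)) x) := by
      rw [map_sub, sub_apply]; ring
    have c1 : ‖D.N w x (u0 - un)‖ ≤ D.K * ‖un - u0‖ := by
      rw [norm_sub_rev un u0]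
      exact ((D.N w x).le_opNorm _).trans (mul_le_mul_of_nonneg_right b3 (norm_nonneg _))
    have c2 : ‖(D.N w x - Nn) un‖ ≤ ‖D.N w x - Nn‖ := by
      have := (D.N w x - Nn).le_opNorm un
      rwa [hu1, mul_one] at this
    have c3 : ‖Nn un - G (ψ (θ n)) x‖ ≤ δ (n0 + ψ (θ n)) := b1
    rw [e1]
    calc ‖D.N w x (u0 - un) + (D.N w x - Nn) un + (Nn un - G (ψ (θ n)) x)‖
        ≤ ‖D.N w x (u0 - un)‖ + ‖(D.N w x - Nn) un‖ + ‖Nn un - G (ψ (θ n)) x‖ := norm_add₃_le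
      _ < ε := by linarith
  have hz := isQ_limit (S := fun n => D.Sm (Ob.v (n0 + ψ (θ n)))) (S0 := D.Sm w)
    (fun n => rank _ _)
    (fun θ' hθ' s t hs ht => closed (fun n => Ob.v (n0 + ψ (θ (θ' n)))) w
      (fun V hV => hθ'.tendsto_atTop.eventually (hcv2 V hV)) s t hs ht)
    (p := fun n => p (Ob.v (n0 + ψ (θ n)))) (fun n => hp _) (fun n => hpc _)
    (u := fun n => u (ψ (θ n))) (fun n => hup _) hlim hmem
  rw [hz, norm_zero] at hu01
  exact zero_ne_one hu01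

end Vale.Agent.P207.H106
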