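import Vale.Agent.P207.H106.Proj
import Vale.Agent.P207.H7.Zoom
import Vale.Agent.P207.H686.K.SB2

/-! # P207, theorem Q', (C1): smooth sections have values in the S-bundle, at the points whose
forward orbit is `3/2`-pinched (general order `k0` of the zoom data) -/

open Metric Set Filter Topology Module
open scoped ContDiff

namespace Vale.Agent.P207.H106.K

open Vale.Agent.P207.H686

variable {E W X : Type*} [NormedAddCommGroup E] [NormedSpace ℝ E]
  [NormedAddCommGroup W] [NormedSpace ℝ W]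

theorem cast_le_inf (k : ℕ) : (k : WithTop ℕ∞) ≤ ∞ := by exact_mod_cast le_top

/-- an infinite forward orbit of the step relation -/
structure Orb (St : X → (E ≃L[ℝ] E) → (W ≃L[ℝ] W) → X → Prop) where
  v : ℕ → X
  A : ℕ → (E ≃L[ℝ] E)
  L : ℕ → (W ≃L[ℝ] W)
  st : ∀ j, St (v j) (A j) (L j) (v (j + 1))

namespace Orb

variable {St : X → (E ≃L[ℝ] E) → (W ≃L[ℝ] W) → X → Prop} (O : Orb St)

/-- products of the actions on `E` -/
def P : ℕ → (E ≃L[ℝ] E)
  | 0 => ContinuousLinearEquiv.refl ℝ E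
  | n + 1 => (P n).trans (O.A n)

/-- products of the actions on the forms -/
def R : ℕ → (W ≃L[ℝ] W)
  | 0 => ContinuousLinearEquiv.refl ℝ W
  | n + 1 => (R n).trans (O.L n)

theorem P_symm_succ (n : ℕ) (x : E) : (O.P (n + 1)).symm x = (O.P n).symm ((O.A n).symm x) := rfl
theorem P_succ (n : ℕ) (x : E) : O.P (n + 1) x = O.A n (O.P n x) := rfl
theorem R_succ (n : ℕ) (s : W) : O.R (n + 1) s = O.L n (O.R n s) := rfl
theorem R_symm_succ (n : ℕ) (s : W) : (O.R (n + 1)).symm s = (O.R n).symm ((O.L n).symm s) := rfl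
theorem R_zero (s : W) : O.R 0 s = s := rfl
theorem P_zero (x : E) : O.P 0 x = x := rfl

/-- the rates of the orbit: `la` contraction backwards, `Lb` expansion of the forms backwards,
`la ^ 3 * Lb < 1` -/
structure Good (C la Lb : ℝ) : Prop where
  C1 : 1 ≤ C
  la0 : 0 < la
  la1 : la < 1
  Lb1 : 1 ≤ Lb
  gap : la ^ 3 * Lb < 1
  back : ∀ i d x, ‖O.P i ((O.P (i + d)).symm x)‖ ≤ C * la ^ d * ‖x‖
  Rback : ∀ i d s, ‖O.R i ((O.R (i + d)).symm s)‖ ≤ C * Lb ^ d * ‖s‖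
  Rfor : ∀ n s, ‖O.R n s‖ ≤ C * la ^ (2 * n) * ‖s‖

theorem P_back {lam : ℝ} (h0 : 0 ≤ lam)
    (hA : ∀ {v A L v'}, St v A L v' → ∀ x, ‖A.symm x‖ ≤ lam * ‖x‖) (i d : ℕ) (x : E) :
    ‖O.P i ((O.P (i + d)).symm x)‖ ≤ lam ^ d * ‖x‖ := by
  induction d generalizing x with
  | zero => simp
  | succ d ih =>
    rw [← add_assoc, P_symm_succ]
    calc ‖O.P i ((O.P (i + d)).symm ((O.A (i + d)).symm x))‖
        ≤ lam ^ d * ‖(O.A (i + d)).symm x‖ := ih _
      _ ≤ lam ^ d * (lam * ‖x‖) :=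
          mul_le_mul_of_nonneg_left (hA (O.st _) x) (pow_nonneg h0 d)
      _ = lam ^ (d + 1) * ‖x‖ := by ring

theorem mem_R {S : X → Submodule ℝ W}
    (step : ∀ {v A L v'}, St v A L v' → ∀ s, s ∈ S v ↔ L s ∈ S v') (n : ℕ)
    (s : W) : s ∈ S (O.v 0) ↔ O.R n s ∈ S (O.v n) := by
  induction n with
  | zero => rw [R_zero]
  | succ n ih => rw [ih, R_succ]; exact step (O.st n) _

end Orb

variable {k0 : ℕ} [FiniteDimensional ℝ E] [FiniteDimensional ℝ W]

/-- the orbit estimate for a smooth section over `ZDk`, along a good orbit -/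
theorem orbit_est (hk0 : 3 ≤ k0) (D : ZDk k0 E W X)
    (pr : X → W →L[ℝ] W) (hpr : ∀ v, IsQ (D.Sm v) (pr v)) (c : ℝ) (hc1 : 1 ≤ c)
    (hc : ∀ v, ‖pr v‖ ≤ c) (O : Orb D.St) {C' la Lb : ℝ} (hO : O.Good C' la Lb)
    {U : Set E} (hU : IsOpen U) {r : ℝ} (hr : 0 < r) (hrU : closedBall (0 : E) r ⊆ U)
    {τ : E → W} (hτ : ContDiffOn ℝ ∞ τ U)
    (hF : ContDiffOn ℝ ∞ (fun x => D.N (O.v 0) x (pr (O.v 0) (τ x))) U)
    (hτ0 : τ 0 ∉ D.Sm (O.v 0)) :
    ∃ (Kc : ℝ) (δ : ℕ → ℝ), Tendsto δ atTop (𝓝 0) ∧ ∀ᶠ n in atTop, ∃ (G : E → ℝ) (u : W),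
      ContDiffOn ℝ ∞ G (ball 0 1) ∧ (∀ x ∈ ball (0 : E) 1, ‖iteratedFDeriv ℝ k0 G x‖ ≤ Kc) ∧
      (∀ x ∈ ball (0 : E) 1, |D.N (O.v n) x u - G x| ≤ δ n) ∧ ‖u‖ = 1 ∧
      pr (O.v n) u = u := by
  classical
  obtain ⟨C, hC, bound⟩ := D.sm_bound
  have step : ∀ {v A L v'}, D.St v A L v' → ∀ s, s ∈ D.Sm v ↔ L s ∈ D.Sm v' :=
    fun h s => D.sm_step h s
  have hl0 := hO.la0
  have hl1 := hO.la1
  have hLb0 : 0 < Lb := zero_lt_one.trans_le hO.Lb1
  have hC'0 : 0 < C' := zero_lt_one.trans_le hO.C1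
  have hc0 : 0 < c := zero_lt_one.trans_le hc1
  set a : ℝ := -Real.log la with ha
  set b : ℝ := Real.log Lb / 2 with hb
  have ha0 : 0 < a := by rw [ha]; have := Real.log_neg hl0 hl1; linarith
  have hgap3 : 2 * b < 3 * a := by
    have h1 : Real.log (la ^ 3 * Lb) < 0 :=
      Real.log_neg (by positivity) hO.gap
    rw [Real.log_mul (by positivity) hLb0.ne', Real.log_pow] at h1
    rw [ha, hb]; push_cast at *; linarith
  have hk0' : (3 : ℝ) ≤ k0 := by exact_mod_cast hk0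
  have hgap : 2 * b < (k0 : ℝ) * a := by nlinarith
  have expl : ∀ (t : ℝ) (m : ℕ), t = m → Real.exp (-a * t) = la ^ m := by
    intro t m h
    subst h
    rw [ha, neg_neg, mul_comm, Real.exp_nat_mul, Real.exp_log hl0]
  have expL : ∀ (t : ℝ) (m : ℕ), t = m → Real.exp (2 * b * t) = Lb ^ m := by
    intro t m h
    subst h
    have : 2 * b * (m : ℝ) = m * Real.log Lb := by rw [hb]; ring
    rw [this, Real.exp_nat_mul, Real.exp_log hLb0]
  set A0 : ℝ := max c r⁻¹ with hA0def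
  have hA01 : 1 ≤ A0 := hc1.trans (le_max_left _ _)
  have hA00 : 0 < A0 := zero_lt_one.trans_le hA01
  set A' : ℝ := A0 * C' with hA'
  have hA1 : 1 ≤ A' := one_le_mul_of_one_le_of_one_le hA01 hO.C1
  have hA0 : 0 < A' := zero_lt_one.trans_le hA1
  -- bounds for the section and the function
  obtain ⟨hσs, B, hB0, hB⟩ := scale_bd hU hτ hr.le hrU k0
  obtain ⟨hFs, M, hM0, hM⟩ := scale_bd hU hF hr.le hrU k0
  -- the error terms
  choose e hes heb heN using fun j => D.St_N (O.st j)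
  set Zf : ℕ → E → W →L[ℝ] ℝ := fun j u => (e j u).comp (O.L j : W →L[ℝ] W)
    - (D.N (O.v (j + 1)) u).comp
        ((ContinuousLinearMap.id ℝ W - pr (O.v (j + 1))).comp (O.L j : W →L[ℝ] W)) with hZf
  have hsmS : ∀ v s, s ∈ D.Sm v → ContDiffOn ℝ ∞ (fun x => D.N v x s) (ball 0 1) :=
    fun v s hs => hs
  have hZs : ∀ j, ContDiffOn ℝ ∞ (Zf j) (ball 0 1) := by
    intro j
    rw [contDiffOn_clm_apply]
    intro s
    have h1 : ContDiffOn ℝ ∞ (fun x => e j x (O.L j s)) (ball 0 1) :=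
      (hes j).clm_apply contDiffOn_const
    have h2 := hsmS (O.v (j + 1)) _ ((hpr (O.v (j + 1))).sub (O.L j s))
    exact h1.sub h2
  have hLj : ∀ j s, ‖O.L j s‖ ≤ ‖s‖ := by
    intro j s
    refine (D.St_L' (O.st j) s).trans ?_
    have : D.lam ^ 2 ≤ 1 := pow_le_one₀ D.lam0.le D.lam1.le
    calc D.lam ^ 2 * ‖s‖ ≤ 1 * ‖s‖ := mul_le_mul_of_nonneg_right this (norm_nonneg _)
      _ = ‖s‖ := one_mul _
  have hMk : ∀ k, 0 ≤ D.M k := fun k =>
    (norm_nonneg _).trans (heb 0 k 0 (mem_ball_self one_pos))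
  set Cz : ℝ := ∑ i ∈ Finset.range (k0 + 1), (D.M i + C i * (1 + c)) with hCz
  have hCz0 : 0 ≤ Cz := Finset.sum_nonneg fun i _ =>
    add_nonneg (hMk i) (mul_nonneg (hC i) (by linarith))
  have hZb : ∀ j, ∀ i ≤ k0, ∀ u ∈ ball (0 : E) 1, ‖iteratedFDeriv ℝ i (Zf j) u‖ ≤ Cz := by
    intro j i hi u hu
    have hnn : ∀ i, 0 ≤ D.M i + C i * (1 + c) := fun i =>
      add_nonneg (hMk i) (mul_nonneg (hC i) (by linarith))
    refine (iter_op_le isOpen_ball (hZs j) hu (hnn i) (fun s => ?_)).trans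
      (Finset.single_le_sum (f := fun i => D.M i + C i * (1 + c)) (fun i _ => hnn i)
        (Finset.mem_range.2 (by omega)))
    set s' := O.L j s - pr (O.v (j + 1)) (O.L j s) with hs'
    have hs'm : s' ∈ D.Sm (O.v (j + 1)) := (hpr _).sub _
    have h1 : ContDiffOn ℝ ∞ (fun x => e j x (O.L j s)) (ball 0 1) :=
      (hes j).clm_apply contDiffOn_const
    have h2 := hsmS (O.v (j + 1)) _ hs'm
    have hnb : (ball (0 : E) 1) ∈ 𝓝 u := isOpen_ball.mem_nhds hu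
    have hfun : (fun y => Zf j y s) = (fun y => e j y (O.L j s)) - (fun y => D.N (O.v (j + 1)) y s') :=
      rfl
    have h3 : iteratedFDeriv ℝ i (fun y => Zf j y s) u
        = iteratedFDeriv ℝ i (fun y => e j y (O.L j s)) u
          - iteratedFDeriv ℝ i (fun y => D.N (O.v (j + 1)) y s') u := by
      rw [hfun]
      exact iteratedFDeriv_sub_apply ((h1.contDiffAt hnb).of_le (by exact_mod_cast le_top))
        ((h2.contDiffAt hnb).of_le (by exact_mod_cast le_top))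
    rw [h3]
    refine (norm_sub_le _ _).trans ?_
    have h4 : ‖iteratedFDeriv ℝ i (fun y => e j y (O.L j s)) u‖ ≤ D.M i * ‖s‖ := by
      have h5 := norm_iteratedFDeriv_clm_apply_const (𝕜 := ℝ) (N := ∞) (n := i) (c := O.L j s)
        ((hes j).contDiffAt hnb) (by exact_mod_cast le_top)
      refine h5.trans ?_
      have h6 := heb j i u hu
      have h7 := hLj j s
      calc ‖O.L j s‖ * ‖iteratedFDeriv ℝ i (e j) u‖ ≤ ‖s‖ * D.M i :=
            mul_le_mul h7 h6 (norm_nonneg _) (norm_nonneg _)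
        _ = D.M i * ‖s‖ := mul_comm _ _
    have h5 : ‖iteratedFDeriv ℝ i (fun y => D.N (O.v (j + 1)) y s') u‖ ≤ C i * (1 + c) * ‖s‖ := by
      refine (bound _ s' hs'm i u hu).trans ?_
      rw [mul_assoc]
      refine mul_le_mul_of_nonneg_left ?_ (hC i)
      have h7 := hLj j s
      have h8 : ‖pr (O.v (j + 1)) (O.L j s)‖ ≤ c * ‖s‖ :=
        ((pr (O.v (j + 1))).le_opNorm _).trans
          (mul_le_mul (hc _) h7 (norm_nonneg _) (by linarith))
      calc ‖s'‖ ≤ ‖O.L j s‖ + ‖pr (O.v (j + 1)) (O.L j s)‖ := norm_sub_le _ _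
        _ ≤ ‖s‖ + c * ‖s‖ := add_le_add h7 h8
        _ = (1 + c) * ‖s‖ := by ring
    calc _ ≤ D.M i * ‖s‖ + C i * (1 + c) * ‖s‖ := add_le_add h4 h5
      _ = (D.M i + C i * (1 + c)) * ‖s‖ := by ring
  -- the push forward
  set Q : ℕ → W →L[ℝ] W := fun j => (pr (O.v j)).comp (O.R j : W →L[ℝ] W) with hQ
  have hQa : ∀ j s, Q j s = pr (O.v j) (O.R j s) := fun j s => rfl
  have hQb : ∀ j, ‖Q j‖ ≤ c * C' * la ^ (2 * j) := by
    intro j
    refine ContinuousLinearMap.opNorm_le_bound _ (by positivity) (fun s => ?_)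
    rw [hQa]
    calc ‖pr (O.v j) (O.R j s)‖ ≤ ‖pr (O.v j)‖ * ‖O.R j s‖ := (pr (O.v j)).le_opNorm _
      _ ≤ c * (C' * la ^ (2 * j) * ‖s‖) :=
          mul_le_mul (hc _) (hO.Rfor j s) (norm_nonneg _) (by linarith)
      _ = c * C' * la ^ (2 * j) * ‖s‖ := by ring
  -- recursion of the push forward
  have hQs : ∀ j s, Q (j + 1) s = pr (O.v (j + 1)) (O.L j (Q j s)) := by
    intro j s
    rw [hQa, O.R_succ]
    have h1 : O.R j s - Q j s ∈ D.Sm (O.v j) := (hpr (O.v j)).sub _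
    have h2 := (step (O.st j) _).1 h1
    have h3 := (hpr (O.v (j + 1))).ker _ h2
    rw [map_sub, map_sub, sub_eq_zero] at h3
    exact h3
  have hQn : ∀ n j, j ≤ n → ∀ s, ‖Q j s‖ ≤ c * C' * Lb ^ (n - j) * ‖Q n s‖ := by
    intro n j hj s
    have h1 : O.R n s - Q n s ∈ D.Sm (O.v n) := (hpr (O.v n)).sub _
    obtain ⟨d, rfl⟩ := Nat.exists_eq_add_of_le hj
    have h2 : (O.R (j + d)).symm (O.R (j + d) s - Q (j + d) s) ∈ D.Sm (O.v 0) := by
      rw [O.mem_R step (j + d)]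
      rw [ContinuousLinearEquiv.apply_symm_apply]
      exact h1
    have h3 := (O.mem_R step j _).1 h2
    have h4 := (hpr (O.v j)).ker _ h3
    rw [map_sub, ContinuousLinearEquiv.symm_apply_apply, map_sub, map_sub, sub_eq_zero] at h4
    rw [hQa j, h4, Nat.add_sub_cancel_left]
    calc ‖pr (O.v j) (O.R j ((O.R (j + d)).symm (Q (j + d) s)))‖
        ≤ ‖pr (O.v j)‖ * ‖O.R j ((O.R (j + d)).symm (Q (j + d) s))‖ := (pr (O.v j)).le_opNorm _
      _ ≤ c * (C' * Lb ^ d * ‖Q (j + d) s‖) :=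
          mul_le_mul (hc _) (hO.Rback j d _) (norm_nonneg _) (by linarith)
      _ = c * C' * Lb ^ d * ‖Q (j + d) s‖ := by ring
  -- size
  have hρ0 : 0 < ‖Q 0 (τ 0)‖ := by
    rw [norm_pos_iff]
    intro h
    exact hτ0 ((hpr (O.v 0)).mem h)
  set q : ℝ := la ^ 3 * Lb with hq
  have hq0 : 0 < q := by positivity
  have hq1 : q < 1 := hO.gap
  have hRn : ∀ n, 0 < ‖Q n (τ 0)‖ := by
    intro n
    have h1 := hQn n 0 (Nat.zero_le _) (τ 0)
    by_contra h
    have h2 : ‖Q n (τ 0)‖ = 0 := le_antisymm (not_lt.1 h) (norm_nonneg _)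
    rw [h2, mul_zero] at h1
    linarith
  set c1 : ℝ := c * C' / ‖Q 0 (τ 0)‖ with hc1def
  have hc10 : 0 ≤ c1 := by positivity
  have hRq : ∀ n, la ^ (3 * n) / ‖Q n (τ 0)‖ ≤ c1 * q ^ n := by
    intro n
    have h1 := hQn n 0 (Nat.zero_le _) (τ 0)
    rw [Nat.sub_zero] at h1
    rw [hc1def, div_mul_eq_mul_div, div_le_div_iff₀ (hRn n) hρ0]
    have h2 : q ^ n = la ^ (3 * n) * Lb ^ n := by rw [hq, mul_pow, pow_mul]
    rw [h2]
    calc la ^ (3 * n) * ‖Q 0 (τ 0)‖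
        ≤ la ^ (3 * n) * (c * C' * Lb ^ n * ‖Q n (τ 0)‖) :=
          mul_le_mul_of_nonneg_left h1 (by positivity)
      _ = c * C' * (la ^ (3 * n) * Lb ^ n) * ‖Q n (τ 0)‖ := by ring
  -- the constants
  set Kz : ℝ := H7.Kz k0 a b A' Cz with hKz
  refine ⟨|Kz| * 2, fun n => D.K * (A' ^ 2 * B) * (c1 * q ^ n), ?_, ?_⟩
  · have h1 := tendsto_pow_atTop_nhds_zero_of_lt_one hq0.le hq1
    have h2 := (h1.const_mul c1).const_mul (D.K * (A' ^ 2 * B))
    simpa using h2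
  -- eventually
  have hev1 : ∀ᶠ n : ℕ in atTop, D.lam ^ n ≤ r := by
    have h1 := tendsto_pow_atTop_nhds_zero_of_lt_one D.lam0.le D.lam1
    filter_upwards [h1.eventually (gt_mem_nhds hr)] with n hn using hn.le
  have hev2 : ∀ᶠ n : ℕ in atTop, (M + n * B) * (c1 * q ^ n) ≤ 1 := by
    have h1 := (tendsto_pow_atTop_nhds_zero_of_lt_one hq0.le hq1).const_mul (M * c1)
    have h2 := (tendsto_self_mul_const_pow_of_lt_one hq0.le hq1).const_mul (B * c1)
    have h3 := h1.add h2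
    simp only [mul_zero, add_zero] at h3
    filter_upwards [h3.eventually (gt_mem_nhds (show (0 : ℝ) < 1 by norm_num))] with n hn
    have : (M + n * B) * (c1 * q ^ n) = M * c1 * q ^ n + B * c1 * (n * q ^ n) := by ring
    rw [this]
    exact hn.le
  filter_upwards [hev1, hev2] with n hn1 hn2
  -- the contractions
  set κ : ℕ → E →L[ℝ] E := fun j => ((O.P n).symm.trans (O.P j) : E ≃L[ℝ] E) with hκ
  have hκa : ∀ j x, κ j x = O.P j ((O.P n).symm x) := fun j x => rfl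
  have hκb0 : ∀ j ≤ n, ∀ x, ‖κ j x‖ ≤ D.lam ^ (n - j) * ‖x‖ := by
    intro j hj x
    obtain ⟨d, hd⟩ := Nat.exists_eq_add_of_le hj
    rw [hκa]
    have : n - j = d := by omega
    rw [this]
    have h1 := O.P_back D.lam0.le (fun h x => D.St_A h x) j d x
    rw [← hd] at h1
    exact h1
  have hκb : ∀ j ≤ n, ∀ x, ‖κ j x‖ ≤ C' * la ^ (n - j) * ‖x‖ := by
    intro j hj x
    obtain ⟨d, hd⟩ := Nat.exists_eq_add_of_le hj
    rw [hκa]
    have : n - j = d := by omega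
    rw [this]
    have h1 := hO.back j d x
    rw [← hd] at h1
    exact h1
  have hκm : ∀ j ≤ n, MapsTo (κ j) (ball (0 : E) 1) (ball 0 1) := by
    intro j hj x hx
    rw [mem_ball_zero_iff] at hx ⊢
    have h1 := hκb0 j hj x
    have h2 : D.lam ^ (n - j) ≤ 1 := pow_le_one₀ D.lam0.le D.lam1.le
    nlinarith [norm_nonneg x]
  set κ' : ℕ → E →L[ℝ] E := fun j => if j = 0 then r⁻¹ • κ 0 else κ j with hκ'
  have hκ'0 : κ' 0 = r⁻¹ • κ 0 := by simp [hκ']
  have hκ's : ∀ j, κ' (j + 1) = κ (j + 1) := by intro j; simp [hκ']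
  have hri : 0 < r⁻¹ := inv_pos.2 hr
  have hκ'b : ∀ j ≤ n, ‖κ' j‖ ≤ A' * Real.exp (-a * ((n : ℝ) - j)) := by
    intro j hj
    rw [expl ((n : ℝ) - j) (n - j) (by rw [Nat.cast_sub hj])]
    rcases j with _ | j
    · rw [hκ'0]
      refine ContinuousLinearMap.opNorm_le_bound _ (by positivity) (fun x => ?_)
      rw [smul_apply, norm_smul, Real.norm_eq_abs, abs_of_pos hri]
      calc r⁻¹ * ‖κ 0 x‖ ≤ A0 * (C' * la ^ (n - 0) * ‖x‖) :=
            mul_le_mul (le_max_right _ _) (hκb 0 (Nat.zero_le _) x) (norm_nonneg _) hA00.le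
        _ = A' * la ^ (n - 0) * ‖x‖ := by rw [hA']; ring
    · rw [hκ's]
      refine ContinuousLinearMap.opNorm_le_bound _ (by positivity) (fun x => ?_)
      refine (hκb (j + 1) hj x).trans ?_
      refine mul_le_mul_of_nonneg_right ?_ (norm_nonneg _)
      refine mul_le_mul_of_nonneg_right ?_ (by positivity)
      rw [hA']
      exact le_mul_of_one_le_left hC'0.le hA01
  have hκ'm : ∀ j ≤ n, MapsTo (κ' j) (ball (0 : E) 1) (ball 0 1) := by
    intro j hj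
    rcases j with _ | j
    · rw [hκ'0]
      intro x hx
      rw [mem_ball_zero_iff] at hx ⊢
      rw [smul_apply, norm_smul, Real.norm_eq_abs, abs_of_pos hri]
      have h1 := hκb0 0 (Nat.zero_le _) x
      rw [Nat.sub_zero] at h1
      have h2 : r⁻¹ * D.lam ^ n ≤ 1 := by
        rw [inv_mul_le_iff₀ hr, mul_one]; exact hn1
      calc r⁻¹ * ‖κ 0 x‖ ≤ r⁻¹ * (D.lam ^ n * ‖x‖) := mul_le_mul_of_nonneg_left h1 hri.le
        _ = (r⁻¹ * D.lam ^ n) * ‖x‖ := by ring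
        _ ≤ 1 * ‖x‖ := mul_le_mul_of_nonneg_right h2 (norm_nonneg _)
        _ < 1 := by rw [one_mul]; exact hx
    · rw [hκ's]; exact hκm (j + 1) hj
  -- the telescoped identity
  have htele : ∀ s : W, ∀ u ∈ ball (0 : E) 1, D.N (O.v n) u (Q n s)
      = D.N (O.v 0) (κ 0 u) (Q 0 s) + ∑ j ∈ Finset.range n, Zf j (κ (j + 1) u) (Q j s) := by
    intro s u hu
    refine H7.tele (fun j => ((O.A j).symm : E →L[ℝ] E)) κ ?_ ?_ hκm (fun j => D.N (O.v j)) Q Zf
      univ ?_ (mem_univ s) hu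
    · intro u
      rw [hκa]
      exact (O.P n).apply_symm_apply u
    · intro j hj u
      rw [hκa, hκa, O.P_succ]
      exact ((O.A j).symm_apply_apply _).symm
    · intro j hj u hu s _
      have h1 := heN j u hu (Q j s)
      rw [hQs j s]
      have h2 : D.N (O.v (j + 1)) u (pr (O.v (j + 1)) (O.L j (Q j s)))
          = D.N (O.v (j + 1)) u (O.L j (Q j s))
            - D.N (O.v (j + 1)) u (O.L j (Q j s) - pr (O.v (j + 1)) (O.L j (Q j s))) := by
        rw [map_sub]; ring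
      rw [h2, h1]
      show _ = D.N (O.v j) ((O.A j).symm u) (Q j s) + (e j u (O.L j (Q j s))
        - D.N (O.v (j + 1)) u (O.L j (Q j s) - pr (O.v (j + 1)) (O.L j (Q j s))))
      ring
  set N0 : E → W →L[ℝ] ℝ := fun u => (D.N (O.v 0) (r • u)).comp (pr (O.v 0)) with hN0
  have hcA : c * C' ≤ A' := mul_le_mul_of_nonneg_right (le_max_left _ _) hC'0.le
  obtain ⟨G, hGs, hGk, hGn⟩ := H7.zoom (k := k0) (n := n) (a := a) (b := b) (A := A') (Cz := Cz)
    (Bσ := B) (M := M) ha0 hk0 hgap hA1 hCz0 hB0 hM0 κ' hκ'm hκ'b Q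
    (fun j hj => by
      have h1 : Real.exp (-2 * a * (j : ℝ)) = la ^ (2 * j) := by
        rw [← expl (2 * (j : ℝ)) (2 * j) (by push_cast; ring)]; congr 1; ring
      rw [h1]
      exact (hQb j).trans (mul_le_mul_of_nonneg_right hcA (by positivity)))
    N0 (D.N (O.v n)) Zf (fun j _ => hZs j) (fun j _ => hZb j) univ
    (fun s _ u hu => by
      rw [htele s u hu]
      have h1 : N0 (κ' 0 u) s = D.N (O.v 0) (κ 0 u) (Q 0 s) := by
        rw [hN0, hκ'0]
        show D.N (O.v 0) (r • (r⁻¹ • κ 0 u)) (pr (O.v 0) s) = _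
        rw [smul_smul, mul_inv_cancel₀ hr.ne', one_smul]
        rfl
      rw [h1]
      congr 1)
    (fun u => τ (r • u)) hσs (fun _ _ => mem_univ _) (fun i _ hi u hu => hB i hi u hu)
    (fun u => D.N (O.v 0) (r • u) (pr (O.v 0) (τ (r • u)))) (fun _ => 0) hFs
    (fun u hu => hM k0 le_rfl u hu) (fun u _ => by rw [add_zero]; rfl)
    (fun j hj => by
      have h1 := hQn n j hj (τ (r • (0 : E)))
      rw [expL ((n : ℝ) - j) (n - j) (by rw [Nat.cast_sub hj])]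
      refine h1.trans ?_
      refine mul_le_mul_of_nonneg_right ?_ (norm_nonneg _)
      exact mul_le_mul_of_nonneg_right hcA (by positivity))
  have e3 : Real.exp (-((k0 : ℝ) * a * n)) = la ^ (k0 * n) := by
    rw [← expl ((k0 : ℝ) * (n : ℝ)) (k0 * n) (by push_cast; ring)]; congr 1; ring
  have e3' : Real.exp (-3 * a * (n : ℝ)) = la ^ (3 * n) := by
    rw [← expl (3 * (n : ℝ)) (3 * n) (by push_cast; ring)]; congr 1; ring
  simp only [smul_zero, e3, e3', abs_zero, zero_add] at hGk hGn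
  have e4 : la ^ (k0 * n) ≤ la ^ (3 * n) :=
    pow_le_pow_of_le_one hl0.le hl1.le (Nat.mul_le_mul_right n hk0)
  set ρ : ℝ := ‖Q n (τ 0)‖ with hρ
  have hρp : 0 < ρ := hRn n
  have hρi : 0 < ρ⁻¹ := inv_pos.2 hρp
  refine ⟨fun x => ρ⁻¹ • G x, ρ⁻¹ • Q n (τ 0), hGs.const_smul ρ⁻¹, ?_, ?_, ?_, ?_⟩
  · intro x hx
    have h1 : iteratedFDeriv ℝ k0 (fun x => ρ⁻¹ • G x) x = ρ⁻¹ • iteratedFDeriv ℝ k0 G x :=
      iteratedFDeriv_const_smul_apply' ((hGs.contDiffAt (isOpen_ball.mem_nhds hx)).of_le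
        (cast_le_inf k0))
    rw [h1, norm_smul, Real.norm_eq_abs, abs_of_pos hρi]
    have h2 := hGk x hx
    have h3 := hRq n
    have h4 : 0 ≤ ρ + M * la ^ (k0 * n) + n * (B * la ^ (3 * n)) := by positivity
    have h5 : ρ⁻¹ * (ρ + M * la ^ (k0 * n) + n * (B * la ^ (3 * n))) ≤ 2 := by
      have h8 : ρ⁻¹ * (ρ + M * la ^ (k0 * n) + n * (B * la ^ (3 * n)))
          ≤ ρ⁻¹ * (ρ + M * la ^ (3 * n) + n * (B * la ^ (3 * n))) := by
        refine mul_le_mul_of_nonneg_left ?_ hρi.le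
        have := mul_le_mul_of_nonneg_left e4 hM0
        linarith
      have h6 : ρ⁻¹ * (ρ + M * la ^ (3 * n) + n * (B * la ^ (3 * n)))
          = 1 + (M + n * B) * (la ^ (3 * n) / ρ) := by
        field_simp
        ring
      rw [h6] at h8
      have h7 : (M + n * B) * (la ^ (3 * n) / ρ) ≤ (M + n * B) * (c1 * q ^ n) :=
        mul_le_mul_of_nonneg_left h3 (by positivity)
      linarith
    calc ρ⁻¹ * ‖iteratedFDeriv ℝ k0 G x‖
        ≤ ρ⁻¹ * (Kz * (ρ + M * la ^ (k0 * n) + n * (B * la ^ (3 * n)))) :=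
          mul_le_mul_of_nonneg_left h2 hρi.le
      _ = Kz * (ρ⁻¹ * (ρ + M * la ^ (k0 * n) + n * (B * la ^ (3 * n)))) := by ring
      _ ≤ |Kz| * (ρ⁻¹ * (ρ + M * la ^ (k0 * n) + n * (B * la ^ (3 * n)))) :=
          mul_le_mul_of_nonneg_right (le_abs_self _) (mul_nonneg hρi.le h4)
      _ ≤ |Kz| * 2 := mul_le_mul_of_nonneg_left h5 (abs_nonneg _)
  · intro x hx
    have h1 := hGn x hx
    have h2 : D.N (O.v n) x (ρ⁻¹ • Q n (τ 0)) - ρ⁻¹ • G x
        = ρ⁻¹ * (D.N (O.v n) x (Q n (τ 0)) - G x) := by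
      rw [map_smul, smul_eq_mul, smul_eq_mul]; ring
    rw [h2, abs_mul, abs_of_pos hρi]
    have h3 := hRq n
    have hK := D.bd (O.v n) x hx
    have hK0 : 0 ≤ D.K := (norm_nonneg _).trans hK
    calc ρ⁻¹ * |D.N (O.v n) x (Q n (τ 0)) - G x|
        ≤ ρ⁻¹ * (‖D.N (O.v n) x‖ * (A' ^ 2 * B * la ^ (3 * n))) :=
          mul_le_mul_of_nonneg_left h1 hρi.le
      _ ≤ ρ⁻¹ * (D.K * (A' ^ 2 * B * la ^ (3 * n))) :=
          mul_le_mul_of_nonneg_left (mul_le_mul_of_nonneg_right hK (by positivity)) hρi.le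
      _ = D.K * (A' ^ 2 * B) * (la ^ (3 * n) / ρ) := by ring
      _ ≤ D.K * (A' ^ 2 * B) * (c1 * q ^ n) :=
          mul_le_mul_of_nonneg_left h3 (by positivity)
  · rw [norm_smul, Real.norm_eq_abs, abs_of_pos hρi, inv_mul_cancel₀ hρp.ne']
  · rw [map_smul]
    congr 1
    exact (hpr (O.v n)).idem _

/-- **(C1) at one point**: a smooth section `σ` with `N · σ` smooth has its value in the S-bundle at
every point which has a good forward orbit -/
theorem c1_point (hk0 : 3 ≤ k0) (D : ZDk k0 E W X) {v : X} {O : Set E} (hO : IsOpen O)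
    (hO1 : O ⊆ ball 0 1) {σ : E → W}
    (hσ : ContDiffOn ℝ ∞ σ O) (hN : ContDiffOn ℝ ∞ (fun x => D.N v x (σ x)) O) {x0 : E}
    (hx0 : x0 ∈ O) {R : E ≃L[ℝ] E} {S : W ≃L[ℝ] W} (Ob : Orb D.St)
    (hbc : D.BC v x0 R S (Ob.v 0)) {C' la Lb : ℝ} (hOb : Ob.Good C' la Lb) :
    σ x0 ∈ D.Sm v := by
  classical
  by_contra hnot
  obtain ⟨c, hc1, hcex⟩ := exists_isQ W
  choose p hp hpc using fun v => hcex (D.Sm v)
  obtain ⟨e, hes, -, heN⟩ := D.BC_N hbc
  -- the section in the chart of `v'`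
  set U : Set E := {y | y ∈ ball (0 : E) 1 ∧ x0 + R.symm y ∈ O} with hU
  have hcont : Continuous fun y : E => x0 + R.symm y := continuous_const.add R.symm.continuous
  have hUo : IsOpen U := isOpen_ball.inter (hO.preimage hcont)
  have hU1 : U ⊆ ball 0 1 := fun y hy => hy.1
  have h0U : (0 : E) ∈ U := ⟨mem_ball_self one_pos, by
    show x0 + R.symm 0 ∈ O
    rw [map_zero, add_zero]; exact hx0⟩
  have hmap : ContDiff ℝ ∞ fun y : E => x0 + R.symm y := contDiff_const.add R.symm.contDiff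
  set τ : E → W := fun y => S (σ (x0 + R.symm y)) with hτdef
  have hτ : ContDiffOn ℝ ∞ τ U :=
    S.contDiff.comp_contDiffOn (hσ.comp hmap.contDiffOn (fun y hy => hy.2))
  have hNτ : ContDiffOn ℝ ∞ (fun y => D.N (Ob.v 0) y (τ y)) U := by
    have h1 : ContDiffOn ℝ ∞ (fun y => D.N v (x0 + R.symm y) (σ (x0 + R.symm y))) U :=
      hN.comp hmap.contDiffOn (fun y hy => hy.2)
    have h2 : ContDiffOn ℝ ∞ (fun y => e y (τ y)) U :=
      (hes.mono (fun y hy => ⟨hy.1, hO1 hy.2⟩)).clm_apply hτ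
    refine (h1.add h2).congr (fun y hy => ?_)
    exact heN y hy.1 (hO1 hy.2) _
  have hNp : ContDiffOn ℝ ∞ (fun y => D.N (Ob.v 0) y (p (Ob.v 0) (τ y))) U := by
    have h1 : ContDiffOn ℝ ∞
        (fun y => (D.N (Ob.v 0) y).comp (ContinuousLinearMap.id ℝ W - p (Ob.v 0))) (ball 0 1) := by
      rw [contDiffOn_clm_apply]
      intro s
      exact (hp (Ob.v 0)).sub s
    have h2 : ContDiffOn ℝ ∞
        (fun y => (D.N (Ob.v 0) y).comp (ContinuousLinearMap.id ℝ W - p (Ob.v 0)) (τ y)) U :=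
      (h1.mono hU1).clm_apply hτ
    refine (hNτ.sub h2).congr (fun y hy => ?_)
    show D.N (Ob.v 0) y (p (Ob.v 0) (τ y))
      = D.N (Ob.v 0) y (τ y) - D.N (Ob.v 0) y (τ y - p (Ob.v 0) (τ y))
    rw [map_sub]; ring
  have hτ0 : τ 0 ∉ D.Sm (Ob.v 0) := by
    have h1 : τ 0 = S (σ x0) := by
      show S (σ (x0 + R.symm 0)) = _
      rw [map_zero, add_zero]
    rw [h1, ← D.sm_bc hbc]
    exact hnot
  obtain ⟨r0, hr0, hr0U⟩ := Metric.isOpen_iff.1 hUo 0 h0U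
  have hrU : closedBall (0 : E) (r0 / 2) ⊆ U :=
    (closedBall_subset_ball (by linarith)).trans hr0U
  obtain ⟨Kc, δ, hδ, hev⟩ := orbit_est hk0 D p hp c hc1 hpc Ob hOb hUo
    (half_pos hr0) hrU hτ hNp hτ0
  obtain ⟨n0, hn0⟩ := eventually_atTop.1 hev
  choose G u hGs hGk hGN hu1 hup using fun m : ℕ => hn0 (n0 + m) (Nat.le_add_right _ _)
  obtain ⟨w, ψ, hψ, hcv⟩ := D.cpt (fun m => Ob.v (n0 + m))
  have hsph : IsCompact (sphere (0 : W) 1) := isCompact_sphere 0 1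
  obtain ⟨u0, hu0, θ, hθ, hlim⟩ := hsph.tendsto_subseq (x := fun m => u (ψ m))
    (fun m => by rw [mem_sphere_zero_iff_norm]; exact hu1 _)
  have hu01 : ‖u0‖ = 1 := by rwa [mem_sphere_zero_iff_norm] at hu0
  have hcv2 : TendstoUniformlyOn (fun n => D.N (Ob.v (n0 + ψ (θ n)))) (D.N w) atTop (ball 0 1) :=
    fun V hV => hθ.tendsto_atTop.eventually (hcv V hV)
  have hmem : u0 ∈ D.Sm w := by
    refine D.sm_fin (k := k0) le_rfl isOpen_ball subset_rfl ⟨0, mem_ball_self one_pos⟩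
      (K' := Kc) (fun n => G (ψ (θ n))) (fun n => hGs _) (fun n x hx => hGk _ x hx) ?_
    rw [Metric.tendstoUniformlyOn_iff]
    intro ε hε
    have hK0 : 0 ≤ D.K := (norm_nonneg _).trans (D.bd w 0 (mem_ball_self one_pos))
    have h1 : ∀ᶠ n in atTop, δ (n0 + ψ (θ n)) < ε / 3 := by
      have h2 : Tendsto (fun n => n0 + ψ (θ n)) atTop atTop :=
        tendsto_atTop_mono (fun n => Nat.le_add_left _ _)
          (hψ.tendsto_atTop.comp hθ.tendsto_atTop)
      exact (hδ.comp h2).eventually (gt_mem_nhds (by linarith))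
    have h2 := (Metric.tendstoUniformlyOn_iff.1 hcv2) (ε / 3) (by linarith)
    have h3 : ∀ᶠ n in atTop, D.K * ‖u (ψ (θ n)) - u0‖ < ε / 3 := by
      have h4 : Tendsto (fun n => D.K * ‖u (ψ (θ n)) - u0‖) atTop (𝓝 (D.K * ‖u0 - u0‖)) :=
        ((hlim.sub tendsto_const_nhds).norm).const_mul _
      rw [sub_self, norm_zero, mul_zero] at h4
      exact h4.eventually (gt_mem_nhds (by linarith))
    filter_upwards [h1, h2, h3] with n a1 a2 a3 x hx
    have b1 := hGN (ψ (θ n)) x hx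
    have b2 := a2 x hx
    have b3 := D.bd w x hx
    set Nn := D.N (Ob.v (n0 + ψ (θ n))) x
    set un := u (ψ (θ n))
    rw [dist_eq_norm] at b2 ⊢
    have e1 : D.N w x u0 - G (ψ (θ n)) x = D.N w x (u0 - un) + (D.N w x - Nn) un
        + (Nn un - G (ψ (θ n)) x) := by
      rw [map_sub, sub_apply]; ring
    have c1 : ‖D.N w x (u0 - un)‖ ≤ D.K * ‖un - u0‖ := by
      rw [norm_sub_rev un u0]
      exact ((D.N w x).le_opNorm _).trans (mul_le_mul_of_nonneg_right b3 (norm_nonneg _))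
    have c2 : ‖(D.N w x - Nn) un‖ ≤ ‖D.N w x - Nn‖ := by
      have := (D.N w x - Nn).le_opNorm un
      rwa [hu1, mul_one] at this
    have c3 : ‖Nn un - G (ψ (θ n)) x‖ ≤ δ (n0 + ψ (θ n)) := b1
    rw [e1]
    calc ‖D.N w x (u0 - un) + (D.N w x - Nn) un + (Nn un - G (ψ (θ n)) x)‖
        ≤ ‖D.N w x (u0 - un)‖ + ‖(D.N w x - Nn) un‖ + ‖Nn un - G (ψ (θ n)) x‖ := norm_add₃_le
      _ < ε := by linarith
  have hz := isQ_limit (S := fun n => D.Sm (Ob.v (n0 + ψ (θ n)))) (S0 := D.Sm w)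
    (fun n => D.sm_rank _ _)
    (fun θ' hθ' s t hs ht => D.sm_closed (v := fun n => Ob.v (n0 + ψ (θ (θ' n)))) (w := w)
      (fun V hV => hθ'.tendsto_atTop.eventually (hcv2 V hV)) hs ht)
    (p := fun n => p (Ob.v (n0 + ψ (θ n)))) (fun n => hp _) (fun n => hpc _)
    (u := fun n => u (ψ (θ n))) (fun n => hup _) hlim hmem
  rw [hz, norm_zero] at hu01
  exact zero_ne_one hu01

/-- **(C1)**: it is enough that the points with a good forward orbit are dense -/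
theorem c1 (hk0 : 3 ≤ k0) (D : ZDk k0 E W X) {v : X} {O : Set E} (hO : IsOpen O)
    (hO1 : O ⊆ ball 0 1) {σ : E → W}
    (hσ : ContDiffOn ℝ ∞ σ O) (hN : ContDiffOn ℝ ∞ (fun x => D.N v x (σ x)) O)
    (hd : O ⊆ closure {x0 | x0 ∈ O ∧ ∃ (R : E ≃L[ℝ] E) (S : W ≃L[ℝ] W) (Ob : Orb D.St)
      (C' la Lb : ℝ), D.BC v x0 R S (Ob.v 0) ∧ Ob.Good C' la Lb}) {x : E} (hx : x ∈ O) :
    σ x ∈ D.Sm v := by
  have hcl : IsClosed (D.Sm v : Set W) := (D.Sm v).closed_of_finiteDimensional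
  obtain ⟨y, hy, hylim⟩ := mem_closure_iff_seq_limit.1 (hd hx)
  have hσx : Tendsto (fun n => σ (y n)) atTop (𝓝 (σ x)) := by
    have h1 : ContinuousAt σ x := (hσ.continuousOn).continuousAt (hO.mem_nhds hx)
    exact h1.tendsto.comp hylim
  refine hcl.mem_of_tendsto hσx (Eventually.of_forall fun n => ?_)
  obtain ⟨hyO, R, S, Ob, C', la, Lb, hbc, hg⟩ := hy n
  exact c1_point hk0 D hO hO1 hσ hN hyO Ob hbc hg

end Vale.Agent.P207.H106.K
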