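import Vale.Agent.P207.H106.Sec
import Vale.Agent.P207.H686.SBun2

/-! # P207, line N4, S-bundle (e) over `ZD`, with the inputs of 686 -/

open Metric Set Filter Topology Module
open scoped ContDiff

namespace Vale.Agent.P207.H686.ZD

variable {E W X : Type*} [NormedAddCommGroup E] [NormedSpace ℝ E] [NormedAddCommGroup W]
  [NormedSpace ℝ W] [FiniteDimensional ℝ E] [FiniteDimensional ℝ W]

/-- smooth sections have values in the S-bundle -/
theorem sm_sec' (D : ZD E W X)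
    (hL : ∀ {v A L v'}, D.St v A L v' → ∀ s, ‖L s‖ ≤ D.lam ^ 2 * ‖s‖)
    {v : X} {O : Set E} (hO : IsOpen O) (hO1 : O ⊆ ball 0 1) {σ : E → W}
    (hσ : ContDiffOn ℝ ∞ σ O) (hN : ContDiffOn ℝ ∞ (fun x => D.N v x (σ x)) O) {x : E}
    (hx : x ∈ O) : σ x ∈ D.Sm v :=
  H106.sec_of D hL (fun v w => D.sm_rank v w) D.sm_bound (fun h s => D.sm_step h s)
    (fun h s => D.sm_bc h s) (fun _ _ h _ _ hs ht => D.sm_closed h hs ht)
    (fun _ _ f _ hf hb hlim => D.sm_fin (k := 3) le_rfl isOpen_ball subset_rfl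
      ⟨0, mem_ball_self one_pos⟩ f hf hb hlim) hO hO1 hσ hN hx

/-- **(e)** smooth sections have values in the S-bundle -/
theorem sm_sec (D : ZD E W X) {v : X} {O : Set E} (hO : IsOpen O) (hO1 : O ⊆ ball 0 1)
    {σ : E → W} (hσ : ContDiffOn ℝ ∞ σ O) (hN : ContDiffOn ℝ ∞ (fun x => D.N v x (σ x)) O)
    {x : E} (hx : x ∈ O) : σ x ∈ D.Sm v :=
  D.sm_sec' (fun h s => D.St_L' h s) hO hO1 hσ hN hx

end Vale.Agent.P207.H686.ZD
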