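import Mathlib

/-! # P207, line N4: the abstract zooming structure (Mathlib only)

`Zoom`: a family of functions `N v` on the unit ball (values: linear functionals on the forms `W`),
renormalised by `phi` with smooth error, with compactness, base change and density.  The `n`-step
form of the cocycle (`coc_iter`), with error bounds (`ErN_bd`), is proved here. -/

open Set Metric Filter Topology
open scoped ContDiff

namespace Vale.Agent.P207.H106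

variable {E W X : Type*} [NormedAddCommGroup E] [NormedSpace ℝ E]
  [NormedAddCommGroup W] [InnerProductSpace ℝ W]

/-- the points of the disc of `v` (seen from `x0`) where the chart of `v'` is defined -/
def dom (x0 : E) (R : E ≃L[ℝ] E) : Set E := {x | ‖x0 + x‖ < 1 ∧ ‖R x‖ < 1}

/-- change of base point: `v'` sits at the point `x0` of the disc of `v` -/
def Chg (N : X → E → (W →L[ℝ] ℝ)) (K : ℝ) (M : ℕ → ℝ) (v : X) (x0 : E) (v' : X)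
    (R : E ≃L[ℝ] E) (S : W ≃L[ℝ] W) : Prop :=
  ‖(R : E →L[ℝ] E)‖ ≤ K ∧ ‖(R.symm : E →L[ℝ] E)‖ ≤ K ∧
  ‖(S : W →L[ℝ] W)‖ ≤ K ∧ ‖(S.symm : W →L[ℝ] W)‖ ≤ K ∧
  ∃ Sm : E → (W →L[ℝ] ℝ), ContDiffOn ℝ ∞ Sm (dom x0 R) ∧
    (∀ k : ℕ, ∀ x ∈ dom x0 R, ‖iteratedFDeriv ℝ k Sm x‖ ≤ M k) ∧
    ∀ x ∈ dom x0 R, ∀ s, N v' (R x) (S s) = N v (x0 + x) s + Sm x s

variable (E W X) in
/-- the abstract zooming structure of step 1 and of Lemma Q -/
structure Zoom where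
  phi : X → X
  A : X → (E ≃L[ℝ] E)
  L : X → (W ≃L[ℝ] W)
  N : X → E → (W →L[ℝ] ℝ)
  Er : X → E → (W →L[ℝ] ℝ)
  lam : ℝ
  Lam : ℝ
  K : ℝ
  M : ℕ → ℝ
  lam_pos : 0 < lam
  lam_lt : lam < 1
  Lam_ge : 1 ≤ Lam
  pinch : lam ^ 3 * Lam < 1
  K_ge : 1 ≤ K
  bd : ∀ v x, ‖x‖ < 1 → ‖N v x‖ ≤ K
  cont : ∀ v, ContinuousOn (N v) (ball 0 1)
  Ac : ∀ v x, ‖(A v).symm x‖ ≤ lam * ‖x‖
  Lc : ∀ v s, ‖L v s‖ ≤ lam ^ 2 * ‖s‖
  Le : ∀ v s, ‖(L v).symm s‖ ≤ Lam * ‖s‖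
  coc : ∀ v x, ‖x‖ < 1 → ∀ s, N (phi v) x (L v s) = N v ((A v).symm x) s + Er v x (L v s)
  Er_sm : ∀ v, ContDiffOn ℝ ∞ (Er v) (ball 0 1)
  Er_bd : ∀ v (k : ℕ) x, ‖x‖ < 1 → ‖iteratedFDeriv ℝ k (Er v) x‖ ≤ M k
  bcEx : ∀ v x0, ‖x0‖ < 1 → ∃ v' R S, Chg N K M v x0 v' R S
  cpt : ∀ u : ℕ → X, ∃ w, ∃ θ : ℕ → ℕ, StrictMono θ ∧
    ∀ x, ‖x‖ < 1 → Tendsto (fun i => N (u (θ i)) x) atTop (𝓝 (N w x))
  dens : ∀ v w, ∀ O : Set E, IsOpen O → O.Nonempty → O ⊆ ball 0 1 →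
    ∃ w' R S, Chg N K M w 0 w' R S ∧
      ∃ (T : ℕ → ℕ) (xs : ℕ → E) (vs : ℕ → X) (Rs : ℕ → (E ≃L[ℝ] E)) (Ss : ℕ → (W ≃L[ℝ] W)),
        Tendsto T atTop atTop ∧ (∀ n, xs n ∈ O) ∧
        (∀ n, Chg N K M v (xs n) (vs n) (Rs n) (Ss n)) ∧
        ∀ x, ‖x‖ < 1 → Tendsto (fun n => N (phi^[T n] (vs n)) x) atTop (𝓝 (N w' x))

theorem isOpen_dom (x0 : E) (R : E ≃L[ℝ] E) : IsOpen (dom x0 R) := by
  have h1 : Continuous fun x : E => ‖x0 + x‖ := (continuous_const.add continuous_id).norm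
  have h2 : Continuous fun x : E => ‖R x‖ := R.continuous.norm
  exact (isOpen_lt h1 continuous_const).inter (isOpen_lt h2 continuous_const)

theorem zero_mem_dom {x0 : E} (h : ‖x0‖ < 1) (R : E ≃L[ℝ] E) : (0 : E) ∈ dom x0 R := by
  constructor
  · simpa using h
  · simp

/-- derivatives of `x ↦ C (g (B x))` -/
theorem norm_iterated_comp {F G : Type*} [NormedAddCommGroup F] [NormedSpace ℝ F]
    [NormedAddCommGroup G] [NormedSpace ℝ G] {g : E → F} {U : Set E} (hU : IsOpen U)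
    (hg : ContDiffOn ℝ ∞ g U) (B : E ≃L[ℝ] E) {l : ℝ} (hB : ∀ x, ‖B x‖ ≤ l * ‖x‖) (hl : 0 ≤ l)
    (C : F →L[ℝ] G) {c : ℝ} (hC : ‖C‖ ≤ c) (k : ℕ) {x : E} (hx : B x ∈ U) :
    ‖iteratedFDeriv ℝ k (fun y => C (g (B y))) x‖ ≤ c * l ^ k * ‖iteratedFDeriv ℝ k g (B x)‖ := by
  have hV : IsOpen ((B : E → E) ⁻¹' U) := hU.preimage B.continuous
  have hgB : ContDiffOn ℝ ∞ (g ∘ B) ((B : E → E) ⁻¹' U) :=
    hg.comp B.contDiff.contDiffOn (fun _ h => h)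
  have h1 : ‖iteratedFDeriv ℝ k (C ∘ (g ∘ B)) x‖ ≤ ‖C‖ * ‖iteratedFDeriv ℝ k (g ∘ B) x‖ :=
    C.norm_iteratedFDeriv_comp_left (N := ∞) (hgB.contDiffAt (hV.mem_nhds hx))
      (by exact_mod_cast le_top)
  have h2 : iteratedFDeriv ℝ k (g ∘ B) x
      = (iteratedFDeriv ℝ k g (B x)).compContinuousLinearMap fun _ => (B : E →L[ℝ] E) := by
    have := B.iteratedFDerivWithin_comp_right (i := k) (x := x) g hU.uniqueDiffOn hx
    rwa [iteratedFDerivWithin_of_isOpen k hV hx, iteratedFDerivWithin_of_isOpen k hU hx] at this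
  have hBn : ‖(B : E →L[ℝ] E)‖ ≤ l := ContinuousLinearMap.opNorm_le_bound _ hl hB
  have h3 : ‖iteratedFDeriv ℝ k (g ∘ B) x‖ ≤ ‖iteratedFDeriv ℝ k g (B x)‖ * l ^ k := by
    rw [h2]
    refine (ContinuousMultilinearMap.norm_compContinuousLinearMap_le _ _).trans ?_
    rw [Finset.prod_const, Finset.card_univ, Fintype.card_fin]
    gcongr
  calc ‖iteratedFDeriv ℝ k (fun y => C (g (B y))) x‖ ≤ ‖C‖ * ‖iteratedFDeriv ℝ k (g ∘ B) x‖ := h1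
    _ ≤ c * (‖iteratedFDeriv ℝ k g (B x)‖ * l ^ k) :=
        mul_le_mul hC h3 (norm_nonneg _) ((norm_nonneg _).trans hC)
    _ = c * l ^ k * ‖iteratedFDeriv ℝ k g (B x)‖ := by ring

namespace Zoom

variable (Z : Zoom E W X)

/-- product of the chart maps along the orbit -/
def An : ℕ → X → (E ≃L[ℝ] E)
  | 0, _ => ContinuousLinearEquiv.refl ℝ E
  | n + 1, v => (An n v).trans (Z.A (Z.phi^[n] v))

/-- product of the maps on the forms along the orbit -/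
def Ln : ℕ → X → (W ≃L[ℝ] W)
  | 0, _ => ContinuousLinearEquiv.refl ℝ W
  | n + 1, v => (Ln n v).trans (Z.L (Z.phi^[n] v))

/-- the `n`-step error -/
def ErN : ℕ → X → E → (W →L[ℝ] ℝ)
  | 0, _ => fun _ => 0
  | n + 1, v => fun x => Z.Er (Z.phi^[n] v) x +
      (ErN n v ((Z.A (Z.phi^[n] v)).symm x)).comp ((Z.L (Z.phi^[n] v)).symm : W →L[ℝ] W)

theorem An_zero (v : X) (x : E) : (Z.An 0 v).symm x = x := rfl
theorem Ln_zero (v : X) (s : W) : Z.Ln 0 v s = s := rfl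
theorem Ln_symm_zero (v : X) (s : W) : (Z.Ln 0 v).symm s = s := rfl
theorem An_succ (n : ℕ) (v : X) (x : E) :
    (Z.An (n + 1) v).symm x = (Z.An n v).symm ((Z.A (Z.phi^[n] v)).symm x) := rfl
theorem Ln_succ (n : ℕ) (v : X) (s : W) :
    Z.Ln (n + 1) v s = Z.L (Z.phi^[n] v) (Z.Ln n v s) := rfl
theorem Ln_symm_succ (n : ℕ) (v : X) (s : W) :
    (Z.Ln (n + 1) v).symm s = (Z.Ln n v).symm ((Z.L (Z.phi^[n] v)).symm s) := rfl

theorem A_lt {v : X} {x : E} (hx : ‖x‖ < 1) : ‖(Z.A v).symm x‖ < 1 := by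
  have h := Z.Ac v x
  have h0 := norm_nonneg x
  nlinarith [Z.lam_pos, Z.lam_lt]

theorem Acn (n : ℕ) (v : X) (x : E) : ‖(Z.An n v).symm x‖ ≤ Z.lam ^ n * ‖x‖ := by
  induction n generalizing x with
  | zero => simp [An_zero]
  | succ n ih =>
    rw [An_succ]
    calc ‖(Z.An n v).symm ((Z.A (Z.phi^[n] v)).symm x)‖
        ≤ Z.lam ^ n * ‖(Z.A (Z.phi^[n] v)).symm x‖ := ih _
      _ ≤ Z.lam ^ n * (Z.lam * ‖x‖) :=
          mul_le_mul_of_nonneg_left (Z.Ac _ _) (pow_nonneg Z.lam_pos.le n)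
      _ = Z.lam ^ (n + 1) * ‖x‖ := by ring

theorem An_lt {n : ℕ} {v : X} {x : E} (hx : ‖x‖ < 1) : ‖(Z.An n v).symm x‖ < 1 := by
  have h := Z.Acn n v x
  have h1 : Z.lam ^ n ≤ 1 := pow_le_one₀ Z.lam_pos.le Z.lam_lt.le
  nlinarith [norm_nonneg x]

theorem Lcn (n : ℕ) (v : X) (s : W) : ‖Z.Ln n v s‖ ≤ Z.lam ^ (2 * n) * ‖s‖ := by
  induction n with
  | zero => simp [Ln_zero]
  | succ n ih =>
    rw [Ln_succ]
    calc ‖Z.L (Z.phi^[n] v) (Z.Ln n v s)‖ ≤ Z.lam ^ 2 * ‖Z.Ln n v s‖ := Z.Lc _ _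
      _ ≤ Z.lam ^ 2 * (Z.lam ^ (2 * n) * ‖s‖) :=
          mul_le_mul_of_nonneg_left ih (pow_nonneg Z.lam_pos.le 2)
      _ = Z.lam ^ (2 * (n + 1)) * ‖s‖ := by ring

theorem Len (n : ℕ) (v : X) (s : W) : ‖(Z.Ln n v).symm s‖ ≤ Z.Lam ^ n * ‖s‖ := by
  induction n generalizing s with
  | zero => simp [Ln_symm_zero]
  | succ n ih =>
    rw [Ln_symm_succ]
    calc ‖(Z.Ln n v).symm ((Z.L (Z.phi^[n] v)).symm s)‖
        ≤ Z.Lam ^ n * ‖(Z.L (Z.phi^[n] v)).symm s‖ := ih _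
      _ ≤ Z.Lam ^ n * (Z.Lam * ‖s‖) :=
          mul_le_mul_of_nonneg_left (Z.Le _ _) (pow_nonneg (zero_le_one.trans Z.Lam_ge) n)
      _ = Z.Lam ^ (n + 1) * ‖s‖ := by ring

theorem coc_iter (n : ℕ) (v : X) (x : E) (hx : ‖x‖ < 1) (s : W) :
    Z.N (Z.phi^[n] v) x (Z.Ln n v s)
      = Z.N v ((Z.An n v).symm x) s + Z.ErN n v x (Z.Ln n v s) := by
  induction n generalizing x with
  | zero => simp [An_zero, Ln_zero, ErN]
  | succ n ih =>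
    rw [Function.iterate_succ_apply', Ln_succ, Z.coc _ _ hx, ih _ (Z.A_lt hx), An_succ]
    simp only [ErN, add_apply, ContinuousLinearMap.comp_apply,
      ContinuousLinearEquiv.coe_coe, ContinuousLinearEquiv.symm_apply_apply]
    ring

theorem L_symm_norm (v : X) : ‖((Z.L v).symm : W →L[ℝ] W)‖ ≤ Z.Lam :=
  ContinuousLinearMap.opNorm_le_bound _ (zero_le_one.trans Z.Lam_ge) (Z.Le v)

theorem ErN_sm (n : ℕ) (v : X) : ContDiffOn ℝ ∞ (Z.ErN n v) (ball 0 1) := by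
  induction n with
  | zero => exact contDiffOn_const
  | succ n ih =>
    refine (Z.Er_sm _).add ?_
    have h1 : ContDiffOn ℝ ∞ (fun x => Z.ErN n v ((Z.A (Z.phi^[n] v)).symm x)) (ball 0 1) :=
      ih.comp ((Z.A (Z.phi^[n] v)).symm.contDiff.contDiffOn) (fun x hx => by
        rw [mem_ball_zero_iff] at hx ⊢; exact Z.A_lt hx)
    exact h1.clm_comp contDiffOn_const

/-- uniform bounds for the `n`-step error, `k ≥ 3` -/
theorem ErN_bd (n : ℕ) (v : X) (k : ℕ) (hk : 3 ≤ k) (x : E) (hx : ‖x‖ < 1) :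
    ‖iteratedFDeriv ℝ k (Z.ErN n v) x‖ ≤ Z.M k / (1 - Z.lam ^ 3 * Z.Lam) := by
  have hp : 0 < 1 - Z.lam ^ 3 * Z.Lam := by linarith [Z.pinch]
  have hM : 0 ≤ Z.M k := (norm_nonneg _).trans (Z.Er_bd v k 0 (by simp))
  have hL0 : 0 ≤ Z.Lam := zero_le_one.trans Z.Lam_ge
  induction n generalizing x with
  | zero =>
    have h0 : Z.ErN 0 v = fun _ : E => (0 : W →L[ℝ] ℝ) := rfl
    rw [h0, iteratedFDeriv_const_of_ne (by omega), Pi.zero_apply, norm_zero]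
    positivity
  | succ n ih =>
    have hball : IsOpen (ball (0 : E) 1) := isOpen_ball
    have hxb : x ∈ ball (0 : E) 1 := by rw [mem_ball_zero_iff]; exact hx
    set u := Z.phi^[n] v with hu
    set C : (W →L[ℝ] ℝ) →L[ℝ] (W →L[ℝ] ℝ) :=
      (ContinuousLinearMap.compL ℝ W W ℝ).flip ((Z.L u).symm : W →L[ℝ] W) with hC
    have hCn : ‖C‖ ≤ Z.Lam := by
      refine ContinuousLinearMap.opNorm_le_bound _ hL0 (fun T => ?_)
      have : C T = T.comp ((Z.L u).symm : W →L[ℝ] W) := rfl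
      rw [this]
      calc ‖T.comp ((Z.L u).symm : W →L[ℝ] W)‖ ≤ ‖T‖ * ‖((Z.L u).symm : W →L[ℝ] W)‖ :=
            ContinuousLinearMap.opNorm_comp_le _ _
        _ ≤ ‖T‖ * Z.Lam := mul_le_mul_of_nonneg_left (Z.L_symm_norm u) (norm_nonneg _)
        _ = Z.Lam * ‖T‖ := mul_comm _ _
    have hsm := Z.ErN_sm n v
    have hBx : (Z.A u).symm x ∈ ball (0 : E) 1 := by
      rw [mem_ball_zero_iff]; exact Z.A_lt hx
    have h2 := norm_iterated_comp hball hsm (Z.A u).symm (Z.Ac u) Z.lam_pos.le C hCn k hBx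
    have hfun : Z.ErN (n + 1) v = fun y => Z.Er u y + C (Z.ErN n v ((Z.A u).symm y)) := rfl
    have hc1 : ContDiffAt ℝ ∞ (Z.Er u) x := (Z.Er_sm u).contDiffAt (hball.mem_nhds hxb)
    have hc2 : ContDiffAt ℝ ∞ (fun y => C (Z.ErN n v ((Z.A u).symm y))) x := by
      have h3 : ContDiffOn ℝ ∞ (fun y => Z.ErN n v ((Z.A u).symm y)) (ball 0 1) :=
        hsm.comp ((Z.A u).symm.contDiff.contDiffOn) (fun y hy => by
          rw [mem_ball_zero_iff] at hy ⊢; exact Z.A_lt hy)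
      exact C.contDiff.contDiffAt.comp x (h3.contDiffAt (hball.mem_nhds hxb))
    have hadd : iteratedFDeriv ℝ k (Z.ErN (n + 1) v) x = iteratedFDeriv ℝ k (Z.Er u) x +
        iteratedFDeriv ℝ k (fun y => C (Z.ErN n v ((Z.A u).symm y))) x := by
      rw [hfun]
      exact iteratedFDeriv_add_apply (hc1.of_le (by exact_mod_cast le_top))
        (hc2.of_le (by exact_mod_cast le_top))
    have hlk : Z.lam ^ k ≤ Z.lam ^ 3 := pow_le_pow_of_le_one Z.lam_pos.le Z.lam_lt.le hk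
    have h4 : Z.Lam * Z.lam ^ k ≤ Z.lam ^ 3 * Z.Lam := by
      rw [mul_comm (Z.lam ^ 3)]; exact mul_le_mul_of_nonneg_left hlk hL0
    have h5 := ih ((Z.A u).symm x) (Z.A_lt hx)
    have hk0 : 0 ≤ Z.Lam * Z.lam ^ k := mul_nonneg hL0 (pow_nonneg Z.lam_pos.le k)
    calc ‖iteratedFDeriv ℝ k (Z.ErN (n + 1) v) x‖
        ≤ ‖iteratedFDeriv ℝ k (Z.Er u) x‖ +
          ‖iteratedFDeriv ℝ k (fun y => C (Z.ErN n v ((Z.A u).symm y))) x‖ := by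
            rw [hadd]; exact norm_add_le _ _
      _ ≤ Z.M k + Z.Lam * Z.lam ^ k * ‖iteratedFDeriv ℝ k (Z.ErN n v) ((Z.A u).symm x)‖ :=
          add_le_add (Z.Er_bd u k x hx) h2
      _ ≤ Z.M k + Z.lam ^ 3 * Z.Lam * (Z.M k / (1 - Z.lam ^ 3 * Z.Lam)) := by
          have h6 : Z.Lam * Z.lam ^ k * ‖iteratedFDeriv ℝ k (Z.ErN n v) ((Z.A u).symm x)‖
              ≤ Z.lam ^ 3 * Z.Lam * (Z.M k / (1 - Z.lam ^ 3 * Z.Lam)) :=
            mul_le_mul h4 h5 (norm_nonneg _) (hk0.trans h4)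
          linarith
      _ = Z.M k / (1 - Z.lam ^ 3 * Z.Lam) := by field_simp; ring

end Zoom

end Vale.Agent.P207.H106
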